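import Vale.Agent.Lib.P359.Trial

/-! # P359: consistency checks of the model (known facts): `P_ij` is an orthogonal projection,
`H ≥ 0`, and the Laughlin vector is a zero mode -/

namespace Vale.Agent.Lib.P359

open Finset

variable {N Q : ℕ}

/-- C1. `upd2 (upd2 x i j c d) i j c' d' = upd2 x i j c' d'` (funext, three cases) -/
theorem upd2_upd2 (x : Cfg N Q) {i j : Fin N} (hij : i ≠ j) (c d c' d' : Fin (Q + 1)) :
    upd2 (upd2 x i j c d) i j c' d' = upd2 x i j c' d' := by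
  funext l
  by_cases hj : l = j
  · subst hj
    rw [upd2_apply_j, upd2_apply_j]
  · by_cases hi : l = i
    · subst hi
      rw [upd2_apply_i _ hij, upd2_apply_i _ hij]
    · rw [upd2_apply_ne _ hi hj, upd2_apply_ne _ hi hj, upd2_apply_ne _ hi hj]

/-- C1. `lam i j ψ` is constant on the fibres (unfold `lam`; `upd2_apply_i`, `upd2_apply_j`,
`upd2_upd2`) -/
theorem lam_upd2 {i j : Fin N} (hij : i ≠ j) (ψ : Vec N Q) (x : Cfg N Q) (c d : Fin (Q + 1))
    (h : (c : ℕ) + (d : ℕ) = (x i : ℕ) + (x j : ℕ)) :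
    lam i j ψ (upd2 x i j c d) = lam i j ψ x := by
  unfold lam
  refine Finset.sum_congr rfl fun c' _ => Finset.sum_congr rfl fun d' _ => ?_
  rw [upd2_apply_i x hij, upd2_apply_j, upd2_upd2 x hij, h]

/-- C2. the norm `nK` as a constrained double sum (`sum_fin_fin_eq_antidiagonal` with
`f c d = (c - d)^2 * (C(Q,c) * C(Q,d))`, which vanishes outside the box by
`Nat.choose_eq_zero_of_lt`; then `push_cast` in `nK`) -/
theorem sum_sq_eq_nK (Q K : ℕ) :
    ∑ c : Fin (Q + 1), ∑ d : Fin (Q + 1), (if (c : ℕ) + (d : ℕ) = K then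
      (((c : ℕ) : ℂ) - ((d : ℕ) : ℂ)) ^ 2 * ((Q.choose c : ℂ) * (Q.choose d : ℂ)) else 0) =
      ((nK Q K : ℝ) : ℂ) := by
  have h := sum_fin_fin_eq_antidiagonal Q K
    (fun c d => (((c : ℕ) : ℂ) - ((d : ℕ) : ℂ)) ^ 2 * ((Q.choose c : ℂ) * (Q.choose d : ℂ)))
    (by
      intro c d hcd
      rcases hcd with hc | hd
      · simp [Nat.choose_eq_zero_of_lt hc]
      · simp [Nat.choose_eq_zero_of_lt hd])
  rw [h]
  unfold nK
  push_cast
  rfl

/-- C3. `P_ij` is idempotent.  Plan: at `x` with `K = x i + x j`: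
`lam i j (pairProj i j ψ) x = ∑ [c + d = K] (c - d) * ((c - d) C(Q,c) C(Q,d) / nK Q K) * lam i j ψ x`
(by `upd2_apply_i`, `upd2_apply_j`, `lam_upd2`) `= (nK Q K / nK Q K) * lam i j ψ x` (`sum_sq_eq_nK`).
If `nK Q K = 0` both sides of the claim vanish (division by zero), otherwise cancel. -/
theorem pairProj_idem {i j : Fin N} (hij : i ≠ j) (ψ : Vec N Q) :
    pairProj i j (pairProj i j ψ) = pairProj i j ψ := by
  funext x
  have hs := sum_sq_eq_nK Q ((x i : ℕ) + (x j : ℕ))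
  have each : ∀ c d : Fin (Q + 1),
      (if (c : ℕ) + (d : ℕ) = (x i : ℕ) + (x j : ℕ) then
        (((c : ℕ) : ℂ) - ((d : ℕ) : ℂ)) * pairProj i j ψ (upd2 x i j c d) else 0) =
      (if (c : ℕ) + (d : ℕ) = (x i : ℕ) + (x j : ℕ) then
        (((c : ℕ) : ℂ) - ((d : ℕ) : ℂ)) ^ 2 * ((Q.choose c : ℂ) * (Q.choose d : ℂ)) else 0) *
        (lam i j ψ x / ((nK Q ((x i : ℕ) + (x j : ℕ)) : ℝ) : ℂ)) := by
    intro c d
    split_ifs with h
    · unfold pairProj
      rw [upd2_apply_i x hij, upd2_apply_j, lam_upd2 hij ψ x c d h, h]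
      ring
    · rw [zero_mul]
  have hl : lam i j (pairProj i j ψ) x =
      ((nK Q ((x i : ℕ) + (x j : ℕ)) : ℝ) : ℂ) *
        (lam i j ψ x / ((nK Q ((x i : ℕ) + (x j : ℕ)) : ℝ) : ℂ)) := by
    have h1 : lam i j (pairProj i j ψ) x = ∑ c : Fin (Q + 1), ∑ d : Fin (Q + 1),
        (if (c : ℕ) + (d : ℕ) = (x i : ℕ) + (x j : ℕ) then
          (((c : ℕ) : ℂ) - ((d : ℕ) : ℂ)) * pairProj i j ψ (upd2 x i j c d) else 0) := rfl
    rw [h1]
    simp only [each]
    simp only [← Finset.sum_mul]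
    rw [hs]
  show _ * lam i j (pairProj i j ψ) x = _ * lam i j ψ x
  rw [hl]
  by_cases hn : ((nK Q ((x i : ℕ) + (x j : ℕ)) : ℝ) : ℂ) = 0
  · rw [hn]
    simp
  · rw [mul_div_cancel₀ _ hn]

/-- C4. `P_ij` is self-adjoint for `ip`.  Plan: unfold; apply `sum_fibre_symm hij` to
`g x x' = wt x * (conj (φ x) * (coef x * ((x' i - x' j) * ψ x')))` with
`coef x = (x i - x j) * (C(Q,x i) * C(Q,x j)) / nK Q (x i + x j)`; on the fibre
`wt (upd2 x i j c d) * (C(Q,c) * C(Q,d)) = wt x * (C(Q,x i) * C(Q,x j))` (`wt_upd2`); all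
coefficients are real (`Complex.conj_natCast`, `Complex.conj_ofReal`).  The proof of `ip_pairProj`
in Form.lean is a model. -/
theorem ip_pairProj_symm {i j : Fin N} (hij : i ≠ j) (φ ψ : Vec N Q) :
    ip φ (pairProj i j ψ) = ip (pairProj i j φ) ψ := by
  set g : Cfg N Q → Cfg N Q → ℂ := fun x x' =>
    ((wt x : ℝ) : ℂ) * (starRingEnd ℂ (φ x) *
      (((((x i : ℕ) : ℂ) - ((x j : ℕ) : ℂ)) * ((Q.choose (x i) : ℂ) * (Q.choose (x j) : ℂ)) /
        ((nK Q ((x i : ℕ) + (x j : ℕ)) : ℝ) : ℂ)) *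
        ((((x' i : ℕ) : ℂ) - ((x' j : ℕ) : ℂ)) * ψ x'))) with hg
  have h1 : ip φ (pairProj i j ψ) = ∑ x : Cfg N Q, ∑ c : Fin (Q + 1), ∑ d : Fin (Q + 1),
        (if (c : ℕ) + (d : ℕ) = (x i : ℕ) + (x j : ℕ) then g x (upd2 x i j c d) else 0) := by
    unfold ip pairProj lam
    apply Finset.sum_congr rfl
    intro x _
    rw [Finset.mul_sum, Finset.mul_sum, Finset.mul_sum]
    apply Finset.sum_congr rfl
    intro c _
    rw [Finset.mul_sum, Finset.mul_sum, Finset.mul_sum]
    apply Finset.sum_congr rfl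
    intro d _
    split_ifs with h2
    · simp only [hg, upd2_apply_i x hij, upd2_apply_j]
    · simp
  have h2 : ip (pairProj i j φ) ψ = ∑ x : Cfg N Q, ∑ c : Fin (Q + 1), ∑ d : Fin (Q + 1),
        (if (c : ℕ) + (d : ℕ) = (x i : ℕ) + (x j : ℕ) then g (upd2 x i j c d) x else 0) := by
    unfold ip
    apply Finset.sum_congr rfl
    intro x _
    have hconj : starRingEnd ℂ (pairProj i j φ x) =
        ((((x i : ℕ) : ℂ) - ((x j : ℕ) : ℂ)) * ((Q.choose (x i) : ℂ) * (Q.choose (x j) : ℂ)) /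
          ((nK Q ((x i : ℕ) + (x j : ℕ)) : ℝ) : ℂ)) * starRingEnd ℂ (lam i j φ x) := by
      unfold pairProj
      rw [map_mul]
      congr 1
      simp only [map_div₀, map_mul, map_sub, Complex.conj_natCast, Complex.conj_ofReal]
    rw [hconj, conj_lam, Finset.mul_sum, Finset.sum_mul, Finset.mul_sum]
    apply Finset.sum_congr rfl
    intro c _
    rw [Finset.mul_sum, Finset.sum_mul, Finset.mul_sum]
    apply Finset.sum_congr rfl
    intro d _
    split_ifs with h7
    · have h8 := wt_upd2 x hij c d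
      have h9 : ((wt (upd2 x i j c d) : ℝ) : ℂ) * ((Q.choose c : ℂ) * (Q.choose d : ℂ)) =
          ((wt x : ℝ) : ℂ) * ((Q.choose (x i) : ℂ) * (Q.choose (x j) : ℂ)) := by
        exact_mod_cast h8
      simp only [hg, upd2_apply_i x hij, upd2_apply_j, h7]
      linear_combination (-((((x i : ℕ) : ℂ) - ((x j : ℕ) : ℂ)) *
        (((c : ℕ) : ℂ) - ((d : ℕ) : ℂ)) * starRingEnd ℂ (φ (upd2 x i j c d)) * ψ x /
        ((nK Q ((x i : ℕ) + (x j : ℕ)) : ℝ) : ℂ))) * h9
    · simp
  rw [h1, h2, sum_fibre_symm hij g]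

/-- C5. `H ≥ 0`: by `ip_ham`, `pairProj_idem`, `ip_pairProj_symm`:
`ip ψ (P ψ) = ip ψ (P (P ψ)) = ip (P ψ) (P ψ)`, whose real part is nonnegative (`ip_self`,
`wt_pos`). -/
theorem energy_nonneg (ψ : Vec N Q) : 0 ≤ (ip ψ (ham ψ)).re := by
  rw [ip_ham, Complex.re_sum]
  refine Finset.sum_nonneg (fun i _ => ?_)
  rw [Complex.re_sum]
  refine Finset.sum_nonneg (fun j _ => ?_)
  split_ifs with h
  · rw [← pairProj_idem h.ne ψ, ip_pairProj_symm h.ne, ip_self, Complex.ofReal_re]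
    exact Finset.sum_nonneg (fun x _ => mul_nonneg (wt_pos x).le (by positivity))
  · simp

/-- C6. the pairing of the Laughlin vector with every `w_K` vanishes: with `y = fun l => (x l : ℕ)`,
`(fun l => (upd2 x i j c d l : ℕ)) = update (update y i c) j d`; `sum_fin_fin_eq_antidiagonal`
(terms outside the box vanish by `lcoef_degree`) and `lcoef_kernel`. -/
theorem lam_laughlin (N : ℕ) {i j : Fin N} (hij : i ≠ j) (x : Cfg N (3 * (N - 1))) :
    lam i j (laughlin N) x = 0 := by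
  set y : Fin N → ℕ := fun l => (x l : ℕ) with hy
  have hsh : ∀ c d : Fin (3 * (N - 1) + 1), (fun l => ((upd2 x i j c d l : Fin _) : ℕ)) =
      Function.update (Function.update y i (c : ℕ)) j (d : ℕ) := by
    intro c d
    funext m
    by_cases hmj : m = j
    · subst hmj
      simp [upd2_apply_j]
    · by_cases hmi : m = i
      · subst hmi
        simp [upd2_apply_i x hij, Function.update_of_ne hmj]
      · simp [upd2_apply_ne x hmi hmj, Function.update_of_ne hmj, Function.update_of_ne hmi, hy]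
  set f : ℕ → ℕ → ℂ := fun c d => ((c : ℂ) - (d : ℂ)) *
    lcoef N (Function.update (Function.update y i c) j d) with hf
  have h1 : lam i j (laughlin N) x = ∑ c : Fin (3 * (N - 1) + 1), ∑ d : Fin (3 * (N - 1) + 1),
      (if (c : ℕ) + (d : ℕ) = (x i : ℕ) + (x j : ℕ) then f c d else 0) := by
    unfold lam laughlin
    apply Finset.sum_congr rfl
    intro c _
    apply Finset.sum_congr rfl
    intro d _
    rw [hsh]
  rw [h1, sum_fin_fin_eq_antidiagonal]
  · exact lcoef_kernel N hij y _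
  · intro c d hcd
    simp only [hf]
    by_contra hne
    have hne2 : lcoef N (Function.update (Function.update y i c) j d) ≠ 0 := by
      intro h0
      apply hne
      rw [h0, mul_zero]
    have h5 := lcoef_degree N hne2 i
    have h6 := lcoef_degree N hne2 j
    rw [Function.update_of_ne hij, Function.update_self] at h5
    rw [Function.update_self] at h6
    omega

/-- C6. the Laughlin vector is a zero mode -/
theorem ham_laughlin (N : ℕ) : ham (laughlin N) = 0 := by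
  funext x
  unfold ham
  apply Finset.sum_eq_zero
  intro i _
  apply Finset.sum_eq_zero
  intro j _
  split_ifs with h
  · unfold pairProj
    rw [lam_laughlin N h.ne, mul_zero]
  · rfl

/-- C7. the Laughlin vector is antisymmetric (`lcoef_perm`) and nonzero
(`exists_lcoef_ne_zero`, `lcoef_degree`; needs `1 ≤ N` for an index `l`) -/
theorem laughlin_antisymm (N : ℕ) : Antisymm (laughlin N) := by
  intro σ x
  unfold laughlin
  exact lcoef_perm N σ (fun i => (x i : ℕ))

/-- C7. -/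
theorem laughlin_ne_zero (N : ℕ) (hN : 1 ≤ N) : ∃ x, laughlin N x ≠ 0 := by
  obtain ⟨y, _, hy⟩ := exists_lcoef_ne_zero N ⟨0, hN⟩
  have hdeg : ∀ l, y l ≤ 3 * (N - 1) := fun l => lcoef_degree N hy l
  refine ⟨fun l => ⟨y l, Nat.lt_succ_of_le (hdeg l)⟩, ?_⟩
  unfold laughlin
  exact hy

end Vale.Agent.Lib.P359
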