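import Mathlib

/-! # P359: the spherical Laughlin (Haldane V_1) Hamiltonian, in the monomial basis

One-particle space `U_Q`: polynomials of degree at most `Q` in `z = u / v` (the monomial `z ^ m`
stands for `u ^ m * v ^ (Q - m)`), the monomials are orthogonal and `z ^ m` has squared norm
`1 / Q.choose m` (the `SU(2)`-invariant inner product).  A vector of the `N`-fold tensor power is
the coefficient function of a polynomial in `z_0, ..., z_(N-1)` of degree at most `Q` in each
variable. -/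

namespace Vale.Agent.Lib.P359

open Finset

variable {N Q : ℕ}

/-- exponent vectors: the exponent of each of the `N` variables, between `0` and `Q` -/
abbrev Cfg (N Q : ℕ) := Fin N → Fin (Q + 1)

/-- vectors of the `N`-fold tensor power of `U_Q`: coefficient functions -/
abbrev Vec (N Q : ℕ) := Cfg N Q → ℂ

/-- the squared norm of the monomial with exponent vector `x` -/
noncomputable def wt (x : Cfg N Q) : ℝ := ∏ i, ((Q.choose (x i) : ℝ))⁻¹

/-- the `SU(2)`-invariant inner product (conjugate linear in the first argument) -/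
noncomputable def ip (φ ψ : Vec N Q) : ℂ :=
  ∑ x, ((wt x : ℝ) : ℂ) * (starRingEnd ℂ (φ x) * ψ x)

/-- The component of total spin `Q - 1` of `U_Q ⊗ U_Q` has the orthogonal basis of weight vectors
`w_K = ∑_{a + b = K} (a - b) * Q.choose a * Q.choose b * z_1 ^ a * z_2 ^ b`, `1 ≤ K ≤ 2 Q - 1`
(up to the factor `Q` this is `(z_1 - z_2)` times the coefficient of `t ^ (K - 1)` in
`((1 + t z_1) (1 + t z_2)) ^ (Q - 1)`).  `nK Q K` is the squared norm of `w_K`. -/
noncomputable def nK (Q K : ℕ) : ℝ :=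
  ∑ p ∈ antidiagonal K, ((p.1 : ℝ) - (p.2 : ℝ)) ^ 2 * ((Q.choose p.1 : ℝ) * (Q.choose p.2 : ℝ))

/-- replace the exponents of the variables `i` and `j` by `c` and `d` -/
def upd2 (x : Cfg N Q) (i j : Fin N) (c d : Fin (Q + 1)) : Cfg N Q :=
  Function.update (Function.update x i c) j d

/-- the inner product of `w_K`, `K = x i + x j`, in the variables `i, j` with `ψ`, the exponents
of the other variables being those of `x` -/
noncomputable def lam (i j : Fin N) (ψ : Vec N Q) (x : Cfg N Q) : ℂ :=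
  ∑ c : Fin (Q + 1), ∑ d : Fin (Q + 1),
    if (c : ℕ) + (d : ℕ) = (x i : ℕ) + (x j : ℕ) then
      (((c : ℕ) : ℂ) - ((d : ℕ) : ℂ)) * ψ (upd2 x i j c d) else 0

/-- `P_ij`: the orthogonal projection `∑_K |w_K⟩⟨w_K| / ⟨w_K, w_K⟩` of the tensor factors `i, j`
onto the component of total spin `Q - 1` -/
noncomputable def pairProj (i j : Fin N) (ψ : Vec N Q) : Vec N Q := fun x =>
  ((((x i : ℕ) : ℂ) - ((x j : ℕ) : ℂ)) * ((Q.choose (x i) : ℂ) * (Q.choose (x j) : ℂ)) /
    ((nK Q ((x i : ℕ) + (x j : ℕ)) : ℝ) : ℂ)) * lam i j ψ x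

/-- the Hamiltonian `H_{N,Q} = ∑_{i<j} P_ij` -/
noncomputable def ham (ψ : Vec N Q) : Vec N Q := fun x =>
  ∑ i : Fin N, ∑ j : Fin N, if i < j then pairProj i j ψ x else 0

/-- the fermionic (antisymmetric) vectors -/
def Antisymm (ψ : Vec N Q) : Prop :=
  ∀ (σ : Equiv.Perm (Fin N)) (x : Cfg N Q),
    ψ (x ∘ σ) = (((Equiv.Perm.sign σ : ℤˣ) : ℤ) : ℂ) * ψ x

/-- the Laughlin polynomial `∏_{i<j} (z_i - z_j) ^ 3` -/
noncomputable def laughlinPoly (N : ℕ) : MvPolynomial (Fin N) ℂ :=
  ∏ i : Fin N, ∏ j ∈ Ioi i, (MvPolynomial.X i - MvPolynomial.X j) ^ 3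

/-- its coefficients -/
noncomputable def lcoef (N : ℕ) (y : Fin N → ℕ) : ℂ :=
  MvPolynomial.coeff (Finsupp.equivFunOnFinite.symm y) (laughlinPoly N)

/-- the Laughlin vector at flux `Q = 3 (N - 1)` -/
noncomputable def laughlin (N : ℕ) : Vec N (3 * (N - 1)) := fun x => lcoef N (fun i => (x i : ℕ))

/-! ### auxiliary objects of the proof -/

/-- `dM Q M = ⟨z_1^0 z_2^M, P (z_1^0 z_2^M)⟩ / ‖z_1^0 z_2^M‖^2` -/
noncomputable def dM (Q M : ℕ) : ℝ := (M : ℝ) ^ 2 * (Q.choose M : ℝ) / nK Q M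

/-- exponent `0` at `l`, all other exponents raised by one -/
def shiftCfg (l : Fin N) (x : Cfg N Q) : Fin N → ℕ := fun i => if i = l then 0 else (x i : ℕ) + 1

/-- the trial vector: one particle in the orbital `z ^ 0`, the other `N - 1` particles in the
Laughlin state multiplied by `∏ z_i ^ 2` (antisymmetrised); its coefficients are read off from
those of the Laughlin polynomial in `N` variables -/
noncomputable def trial (N : ℕ) : Vec N (3 * (N - 1)) := fun x =>
  ∑ l : Fin N, if (x l : ℕ) = 0 then lcoef N (shiftCfg l x) else 0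

/-- the boundary property: in the pairing with `w_K` only the two terms with an exponent `0`
contribute -/
def Bdry (ψ : Vec N Q) : Prop :=
  ∀ i j : Fin N, i ≠ j → ∀ x : Cfg N Q,
    lam i j ψ x = if (x i : ℕ) + (x j : ℕ) ≤ Q then
      -2 * (((x i : ℕ) : ℂ) + ((x j : ℕ) : ℂ)) *
        ψ (upd2 x i j 0 (Fin.ofNat (Q + 1) ((x i : ℕ) + (x j : ℕ)))) else 0

end Vale.Agent.Lib.P359
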