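import Vale.Agent.Lib.P359.Norm

/-! # P359: the energy of an antisymmetric vector with the boundary property -/

namespace Vale.Agent.Lib.P359

open Finset

variable {N Q : ℕ}

theorem wt_pos (x : Cfg N Q) : 0 < wt x := by
  unfold wt
  apply Finset.prod_pos
  intro i _
  have : 0 < Q.choose (x i) := Nat.choose_pos (Nat.lt_succ_iff.1 (x i).2)
  positivity

theorem upd2_apply_i (x : Cfg N Q) {i j : Fin N} (hij : i ≠ j) (c d : Fin (Q + 1)) :
    upd2 x i j c d i = c := by
  simp [upd2, Function.update_of_ne hij]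

theorem upd2_apply_j (x : Cfg N Q) (i j : Fin N) (c d : Fin (Q + 1)) :
    upd2 x i j c d j = d := by
  simp [upd2]

theorem upd2_apply_ne (x : Cfg N Q) {i j l : Fin N} (hi : l ≠ i) (hj : l ≠ j)
    (c d : Fin (Q + 1)) : upd2 x i j c d l = x l := by
  simp [upd2, Function.update_of_ne hi, Function.update_of_ne hj]

theorem upd2_comm (x : Cfg N Q) {i j : Fin N} (hij : i ≠ j) (c d : Fin (Q + 1)) :
    upd2 x j i d c = upd2 x i j c d := by
  unfold upd2
  exact Function.update_comm hij.symm d c x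

theorem wt_mul_choose (y : Cfg N Q) {i j : Fin N} (hij : i ≠ j) :
    wt y * ((Q.choose (y i) : ℝ) * (Q.choose (y j) : ℝ)) =
      ∏ l ∈ (univ.erase i).erase j, ((Q.choose (y l) : ℝ))⁻¹ := by
  have hi : (Q.choose (y i) : ℝ) ≠ 0 := by
    have : 0 < Q.choose (y i) := Nat.choose_pos (Nat.lt_succ_iff.1 (y i).2)
    positivity
  have hj : (Q.choose (y j) : ℝ) ≠ 0 := by
    have : 0 < Q.choose (y j) := Nat.choose_pos (Nat.lt_succ_iff.1 (y j).2)
    positivity
  unfold wt
  rw [← Finset.mul_prod_erase univ _ (mem_univ i),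
    ← Finset.mul_prod_erase (univ.erase i) _ (mem_erase.2 ⟨hij.symm, mem_univ j⟩)]
  field_simp

/-- F1. `wt x * C(Q, x i) * C(Q, x j)` is the product over the other variables, so it does not
change under `upd2`.  (Split off the factors `i` and `j`, e.g. `Finset.prod_erase_mul` /
`Fintype.prod_eq_mul_prod_compl`, all binomials are nonzero.) -/
theorem wt_upd2 (x : Cfg N Q) {i j : Fin N} (hij : i ≠ j) (c d : Fin (Q + 1)) :
    wt (upd2 x i j c d) * ((Q.choose c : ℝ) * (Q.choose d : ℝ)) =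
      wt x * ((Q.choose (x i) : ℝ) * (Q.choose (x j) : ℝ)) := by
  have h := wt_mul_choose (upd2 x i j c d) hij
  rw [upd2_apply_i x hij, upd2_apply_j] at h
  rw [h, wt_mul_choose x hij]
  refine Finset.prod_congr rfl fun l hl => ?_
  have hlj : l ≠ j := (mem_erase.1 hl).1
  have hli : l ≠ i := (mem_erase.1 (mem_erase.1 hl).2).1
  rw [upd2_apply_ne x hli hlj]

/-- auxiliary for F2: undoing `upd2` -/
theorem upd2_upd2_self (x : Cfg N Q) {i j : Fin N} (hij : i ≠ j) (c d : Fin (Q + 1)) :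
    upd2 (upd2 x i j c d) i j (x i) (x j) = x := by
  funext l
  by_cases hi : l = i
  · subst hi; rw [upd2_apply_i _ hij]
  · by_cases hj : l = j
    · subst hj; rw [upd2_apply_j]
    · rw [upd2_apply_ne _ hi hj, upd2_apply_ne _ hi hj]

/-- auxiliary for F2: the involution -/
def fibreInv {i j : Fin N} (hij : i ≠ j) :
    Equiv.Perm (Cfg N Q × Fin (Q + 1) × Fin (Q + 1)) :=
  Function.Involutive.toPerm (fun p => (upd2 p.1 i j p.2.1 p.2.2, p.1 i, p.1 j)) (by
    rintro ⟨x, c, d⟩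
    simp only [upd2_upd2_self x hij, upd2_apply_i x hij, upd2_apply_j])

/-- auxiliary for F2: a triple sum as a sum over the product -/
theorem sum_triple (F : Cfg N Q → Fin (Q + 1) → Fin (Q + 1) → ℂ) :
    ∑ x : Cfg N Q, ∑ c : Fin (Q + 1), ∑ d : Fin (Q + 1), F x c d =
      ∑ p : Cfg N Q × Fin (Q + 1) × Fin (Q + 1), F p.1 p.2.1 p.2.2 := by
  rw [Fintype.sum_prod_type]
  refine Finset.sum_congr rfl fun x _ => ?_
  rw [Fintype.sum_prod_type]

/-- F2. The relation `x' = upd2 x i j c d, c + d = x i + x j` is symmetric: reindex by the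
involution `(x, c, d) ↦ (upd2 x i j c d, x i, x j)` of `Cfg N Q × Fin (Q+1) × Fin (Q+1)`. -/
theorem sum_fibre_symm {i j : Fin N} (hij : i ≠ j) (g : Cfg N Q → Cfg N Q → ℂ) :
    ∑ x : Cfg N Q, ∑ c : Fin (Q + 1), ∑ d : Fin (Q + 1),
        (if (c : ℕ) + (d : ℕ) = (x i : ℕ) + (x j : ℕ) then g x (upd2 x i j c d) else 0) =
      ∑ x : Cfg N Q, ∑ c : Fin (Q + 1), ∑ d : Fin (Q + 1),
        (if (c : ℕ) + (d : ℕ) = (x i : ℕ) + (x j : ℕ) then g (upd2 x i j c d) x else 0) := by
  rw [sum_triple (fun x c d =>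
      if (c : ℕ) + (d : ℕ) = (x i : ℕ) + (x j : ℕ) then g x (upd2 x i j c d) else 0),
    sum_triple (fun x c d =>
      if (c : ℕ) + (d : ℕ) = (x i : ℕ) + (x j : ℕ) then g (upd2 x i j c d) x else 0),
    ← Equiv.sum_comp (fibreInv (Q := Q) hij)]
  refine Finset.sum_congr rfl ?_
  rintro ⟨x, c, d⟩ _
  show (if ((x i : ℕ)) + ((x j : ℕ)) = ((upd2 x i j c d i : Fin (Q + 1)) : ℕ)
      + ((upd2 x i j c d j : Fin (Q + 1)) : ℕ)
    then g (upd2 x i j c d) (upd2 (upd2 x i j c d) i j (x i) (x j)) else 0) =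
    (if (c : ℕ) + (d : ℕ) = (x i : ℕ) + (x j : ℕ) then g (upd2 x i j c d) x else 0)
  rw [upd2_upd2_self x hij, upd2_apply_i x hij, upd2_apply_j]
  by_cases h : (c : ℕ) + (d : ℕ) = (x i : ℕ) + (x j : ℕ)
  · rw [if_pos h, if_pos h.symm]
  · rw [if_neg h, if_neg (fun h' => h h'.symm)]

/-- F3. exchange the names of the summation variables and use `upd2_comm` -/
theorem lam_symm {i j : Fin N} (hij : i ≠ j) (ψ : Vec N Q) (x : Cfg N Q) :
    lam j i ψ x = - lam i j ψ x := by
  unfold lam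
  rw [Finset.sum_comm, ← Finset.sum_neg_distrib]
  refine Finset.sum_congr rfl fun c _ => ?_
  rw [← Finset.sum_neg_distrib]
  refine Finset.sum_congr rfl fun d _ => ?_
  rw [upd2_comm x hij c d]
  by_cases h : (c : ℕ) + (d : ℕ) = (x i : ℕ) + (x j : ℕ)
  · rw [if_pos h, if_pos (by omega)]
    ring
  · rw [if_neg h, if_neg (by omega)]
    simp

/-- F3. -/
theorem pairProj_symm {i j : Fin N} (hij : i ≠ j) (ψ : Vec N Q) :
    pairProj j i ψ = pairProj i j ψ := by
  funext x
  unfold pairProj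
  rw [lam_symm hij, Nat.add_comm (x j : ℕ) (x i : ℕ)]
  ring

theorem val_ofNat_of_le {K : ℕ} (h : K ≤ Q) : ((Fin.ofNat (Q + 1) K : Fin (Q + 1)) : ℕ) = K := by
  simp [Fin.ofNat, Nat.mod_eq_of_lt (Nat.lt_succ_of_le h)]

/-- the boundary term as a constrained double sum -/
theorem bdry_as_sum (ψ : Vec N Q) (i j : Fin N) (x : Cfg N Q) (t : ℂ) :
    (if (x i : ℕ) + (x j : ℕ) ≤ Q then
      t * ψ (upd2 x i j 0 (Fin.ofNat (Q + 1) ((x i : ℕ) + (x j : ℕ)))) else 0) =
    ∑ c : Fin (Q + 1), ∑ d : Fin (Q + 1),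
      (if (c : ℕ) + (d : ℕ) = (x i : ℕ) + (x j : ℕ) then
        (if (c : ℕ) = 0 then t * ψ (upd2 x i j c d) else 0) else 0) := by
  rw [Finset.sum_eq_single (0 : Fin (Q + 1))]
  · simp only [Fin.val_zero, zero_add, if_true]
    by_cases h : (x i : ℕ) + (x j : ℕ) ≤ Q
    · rw [if_pos h, Finset.sum_eq_single (Fin.ofNat (Q + 1) ((x i : ℕ) + (x j : ℕ)))]
      · rw [if_pos (val_ofNat_of_le h)]
      · intro d _ hd
        rw [if_neg]
        intro h2
        apply hd
        apply Fin.ext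
        rw [val_ofNat_of_le h, h2]
      · intro h2
        exact absurd (Finset.mem_univ _) h2
    · rw [if_neg h]
      symm
      apply Finset.sum_eq_zero
      intro d _
      rw [if_neg]
      intro h2
      apply h
      rw [← h2]
      exact Nat.lt_succ_iff.1 d.2
  · intro c _ hc
    apply Finset.sum_eq_zero
    intro d _
    have : (c : ℕ) ≠ 0 := fun h => hc (Fin.ext h)
    simp [this]
  · intro h2
    exact absurd (Finset.mem_univ _) h2

theorem conj_lam (i j : Fin N) (ψ : Vec N Q) (x : Cfg N Q) :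
    starRingEnd ℂ (lam i j ψ x) = ∑ c : Fin (Q + 1), ∑ d : Fin (Q + 1),
      if (c : ℕ) + (d : ℕ) = (x i : ℕ) + (x j : ℕ) then
        (((c : ℕ) : ℂ) - ((d : ℕ) : ℂ)) * starRingEnd ℂ (ψ (upd2 x i j c d)) else 0 := by
  unfold lam
  rw [map_sum]
  apply Finset.sum_congr rfl
  intro c _
  rw [map_sum]
  apply Finset.sum_congr rfl
  intro d _
  split_ifs
  · simp
  · simp

/-- F4 (main computation).  Plan: unfold; with `b x = wt x * C(Q,x i) * C(Q,x j) / nK Q (x i + x j)`
(invariant under `upd2 x i j c d` with `c + d = x i + x j`, by `wt_upd2`)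
`ip ψ (pairProj i j ψ) = ∑ x, b x * (x i - x j) * conj (ψ x) * lam i j ψ x`.  Insert `hB` and write
`[K ≤ Q] * (-2 K) * ψ (upd2 x i j 0 K) = ∑ c d, [c + d = K] [c = 0] (-2 K) ψ (upd2 x i j c d)`.
Apply `sum_fibre_symm`: the sum becomes
`∑ r, [r i = 0] b r (-2 (r j)) ψ r * ∑ c d, [c + d = r i + r j] (c - d) conj (ψ (upd2 r i j c d))`
`= ∑ r, [r i = 0] b r (-2 (r j)) ψ r * conj (lam i j ψ r)`, and by `hB` again (for `r i = 0`:
`upd2 r i j 0 (r j) = r`) `lam i j ψ r = -2 (r j) ψ r`.  Finally `b r * (r j)^2 = wt r * dM Q (r j)`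
when `r i = 0`. -/
theorem ip_pairProj (ψ : Vec N Q) (hB : Bdry ψ) {i j : Fin N} (hij : i ≠ j) :
    ip ψ (pairProj i j ψ) =
      ((∑ r : Cfg N Q, if (r i : ℕ) = 0 then 4 * wt r * dM Q (r j) * ‖ψ r‖ ^ 2 else 0 : ℝ) : ℂ) := by
  -- the function `g`
  set g : Cfg N Q → Cfg N Q → ℂ := fun x x' =>
    ((wt x : ℝ) : ℂ) * (starRingEnd ℂ (ψ x) *
      (((((x i : ℕ) : ℂ) - ((x j : ℕ) : ℂ)) * ((Q.choose (x i) : ℂ) * (Q.choose (x j) : ℂ)) /
        ((nK Q ((x i : ℕ) + (x j : ℕ)) : ℝ) : ℂ)) *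
        (if (x' i : ℕ) = 0 then (-2 * (((x i : ℕ) : ℂ) + ((x j : ℕ) : ℂ))) * ψ x' else 0))) with hg
  have h1 : ip ψ (pairProj i j ψ) = ∑ x : Cfg N Q, ∑ c : Fin (Q + 1), ∑ d : Fin (Q + 1),
        (if (c : ℕ) + (d : ℕ) = (x i : ℕ) + (x j : ℕ) then g x (upd2 x i j c d) else 0) := by
    unfold ip pairProj
    apply Finset.sum_congr rfl
    intro x _
    rw [hB i j hij x, bdry_as_sum, Finset.mul_sum, Finset.mul_sum, Finset.mul_sum]
    apply Finset.sum_congr rfl
    intro c _
    rw [Finset.mul_sum, Finset.mul_sum, Finset.mul_sum]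
    apply Finset.sum_congr rfl
    intro d _
    split_ifs with h2 h3
    · simp only [hg, upd2_apply_i x hij, h3, if_true]
    · simp only [hg, upd2_apply_i x hij, h3, if_false]
    · simp
  rw [h1, sum_fibre_symm hij g]
  push_cast
  apply Finset.sum_congr rfl
  intro x _
  by_cases h0 : (x i : ℕ) = 0
  · rw [if_pos h0]
    have hK : (x i : ℕ) + (x j : ℕ) = (x j : ℕ) := by omega
    have hKQ : (x i : ℕ) + (x j : ℕ) ≤ Q := by
      rw [hK]; exact Nat.lt_succ_iff.1 (x j).2
    have hx0 : x i = 0 := Fin.ext h0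
    have hrep : upd2 x i j 0 (Fin.ofNat (Q + 1) ((x i : ℕ) + (x j : ℕ))) = x := by
      have h5 : (Fin.ofNat (Q + 1) ((x i : ℕ) + (x j : ℕ)) : Fin (Q + 1)) = x j := by
        apply Fin.ext
        rw [val_ofNat_of_le hKQ, hK]
      rw [h5, ← hx0]
      unfold upd2
      simp
    have hlam : lam i j ψ x = -2 * (((x j : ℕ) : ℂ)) * ψ x := by
      rw [hB i j hij x, if_pos hKQ, hrep, h0]
      simp
    set A : ℂ := ((wt x : ℝ) : ℂ) * ((Q.choose (x i) : ℂ) * (Q.choose (x j) : ℂ)) /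
      ((nK Q ((x i : ℕ) + (x j : ℕ)) : ℝ) : ℂ) * ((-2 * (((x i : ℕ) : ℂ) + ((x j : ℕ) : ℂ))) * ψ x)
      with hA
    have h6 : ∑ c : Fin (Q + 1), ∑ d : Fin (Q + 1),
        (if (c : ℕ) + (d : ℕ) = (x i : ℕ) + (x j : ℕ) then g (upd2 x i j c d) x else 0) =
        A * starRingEnd ℂ (lam i j ψ x) := by
      rw [conj_lam, Finset.mul_sum]
      apply Finset.sum_congr rfl
      intro c _
      rw [Finset.mul_sum]
      apply Finset.sum_congr rfl
      intro d _
      split_ifs with h7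
      · have h8 := wt_upd2 x hij c d
        have h9 : ((wt (upd2 x i j c d) : ℝ) : ℂ) * ((Q.choose c : ℂ) * (Q.choose d : ℂ)) =
            ((wt x : ℝ) : ℂ) * ((Q.choose (x i) : ℂ) * (Q.choose (x j) : ℂ)) := by
          exact_mod_cast h8
        have h10 : (((c : ℕ) : ℂ) + ((d : ℕ) : ℂ)) = (((x i : ℕ) : ℂ) + ((x j : ℕ) : ℂ)) := by
          exact_mod_cast h7
        simp only [hg, upd2_apply_i x hij, upd2_apply_j, h7, hA]
        rw [if_pos h0, h10, ← h9]
        ring
      · simp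
    rw [h6, hlam, hA, h0]
    have hc0 : (Q.choose 0 : ℂ) = 1 := by simp
    simp only [Nat.cast_zero, zero_add, map_mul, map_neg, map_ofNat, Complex.conj_natCast, hc0,
      one_mul]
    have h11 : ψ x * starRingEnd ℂ (ψ x) = ((‖ψ x‖ ^ 2 : ℝ) : ℂ) := by
      rw [Complex.mul_conj, Complex.normSq_eq_norm_sq]
    unfold dM
    push_cast
    push_cast at h11
    rw [← h11]
    ring
  · rw [if_neg h0]
    apply Finset.sum_eq_zero
    intro c _
    apply Finset.sum_eq_zero
    intro d _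
    have h12 : g (upd2 x i j c d) x = 0 := by
      simp only [hg]
      rw [if_neg h0]
      ring
    rw [h12]
    simp

/-- F5. linearity of `ip` in the second argument -/
theorem ip_ham (ψ : Vec N Q) :
    ip ψ (ham ψ) = ∑ i : Fin N, ∑ j : Fin N, if i < j then ip ψ (pairProj i j ψ) else 0 := by
  unfold ip ham
  have h : ∀ x : Cfg N Q, ((wt x : ℝ) : ℂ) * (starRingEnd ℂ (ψ x) *
      ∑ i : Fin N, ∑ j : Fin N, if i < j then pairProj i j ψ x else 0) =
      ∑ i : Fin N, ∑ j : Fin N, if i < j then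
        ((wt x : ℝ) : ℂ) * (starRingEnd ℂ (ψ x) * pairProj i j ψ x) else 0 := by
    intro x
    rw [Finset.mul_sum, Finset.mul_sum]
    apply Finset.sum_congr rfl
    intro i _
    rw [Finset.mul_sum, Finset.mul_sum]
    apply Finset.sum_congr rfl
    intro j _
    split_ifs <;> simp
  simp_rw [h]
  rw [Finset.sum_comm]
  apply Finset.sum_congr rfl
  intro i _
  rw [Finset.sum_comm]
  apply Finset.sum_congr rfl
  intro j _
  split_ifs <;> simp

/-- F5. -/
theorem ip_self (ψ : Vec N Q) : ip ψ ψ = ((∑ x : Cfg N Q, wt x * ‖ψ x‖ ^ 2 : ℝ) : ℂ) := by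
  unfold ip
  push_cast
  apply Finset.sum_congr rfl
  intro x _
  have h11 : starRingEnd ℂ (ψ x) * ψ x = ((‖ψ x‖ ^ 2 : ℝ) : ℂ) := by
    rw [mul_comm, Complex.mul_conj, Complex.normSq_eq_norm_sq]
  rw [h11]
  push_cast
  ring

/-- F6. Pauli principle: apply `hA` to `Equiv.swap i j` (`x ∘ swap i j = x`, sign `-1`) -/
theorem Antisymm.eq_zero {ψ : Vec N Q} (hA : Antisymm ψ) {x : Cfg N Q} {i j : Fin N} (hij : i ≠ j)
    (hx : x i = x j) : ψ x = 0 := by
  have h := hA (Equiv.swap i j) x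
  have hxs : x ∘ (Equiv.swap i j) = x := by
    funext l
    by_cases hli : l = i
    · subst hli
      simp [hx]
    · by_cases hlj : l = j
      · subst hlj
        simp [hx]
      · simp [Equiv.swap_apply_of_ne_of_ne hli hlj]
  rw [hxs, Equiv.Perm.sign_swap hij] at h
  have h2 : ψ x = - ψ x := by
    simpa using h
  have h3 : (2 : ℂ) * ψ x = 0 := by
    linear_combination h2
  simpa using h3

/-- F6. for an injective configuration: at most one `i` has `r i = 0`, and
`∑_{j} dM Q (r j) ≤ ∑_M dM Q M` (`dM_nonneg`, injectivity) -/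
theorem sum_dM_le (r : Cfg N Q) (hr : Function.Injective r) :
    ∑ i : Fin N, ∑ j : Fin N, (if i ≠ j ∧ (r i : ℕ) = 0 then dM Q (r j) else 0) ≤
      ∑ M ∈ range (Q + 1), dM Q M := by
  have hS : ∑ j : Fin N, dM Q (r j) ≤ ∑ M ∈ range (Q + 1), dM Q M := by
    have hinj : Function.Injective (fun j : Fin N => ((r j : Fin (Q + 1)) : ℕ)) :=
      fun a b h => hr (Fin.ext h)
    rw [← Finset.sum_image (f := fun M => dM Q M)
      (g := fun j : Fin N => ((r j : Fin (Q + 1)) : ℕ)) (s := univ) (fun a _ b _ h => hinj h)]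
    apply Finset.sum_le_sum_of_subset_of_nonneg
    · intro M hM
      obtain ⟨j, _, rfl⟩ := Finset.mem_image.1 hM
      exact Finset.mem_range.2 (r j).2
    · intro M _ _
      exact dM_nonneg Q M
  have hS0 : 0 ≤ ∑ j : Fin N, dM Q (r j) := Finset.sum_nonneg fun j _ => dM_nonneg _ _
  calc ∑ i : Fin N, ∑ j : Fin N, (if i ≠ j ∧ (r i : ℕ) = 0 then dM Q (r j) else 0)
      ≤ ∑ i : Fin N, (if (r i : ℕ) = 0 then ∑ j : Fin N, dM Q (r j) else 0) := by
        apply Finset.sum_le_sum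
        intro i _
        by_cases h : (r i : ℕ) = 0
        · rw [if_pos h]
          apply Finset.sum_le_sum
          intro j _
          split_ifs
          · exact le_rfl
          · exact dM_nonneg _ _
        · simp [h]
    _ = ((univ.filter fun i : Fin N => (r i : ℕ) = 0).card : ℝ) * ∑ j : Fin N, dM Q (r j) := by
        rw [← Finset.sum_filter, Finset.sum_const, nsmul_eq_mul]
    _ ≤ 1 * ∑ j : Fin N, dM Q (r j) := by
        apply mul_le_mul_of_nonneg_right _ hS0
        have : (univ.filter fun i : Fin N => (r i : ℕ) = 0).card ≤ 1 := by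
          rw [Finset.card_le_one]
          intro a ha b hb
          have ha' : (r a : ℕ) = 0 := (Finset.mem_filter.1 ha).2
          have hb' : (r b : ℕ) = 0 := (Finset.mem_filter.1 hb).2
          exact hr (Fin.ext (by rw [ha', hb']))
        exact_mod_cast this
    _ ≤ ∑ M ∈ range (Q + 1), dM Q M := by
        rw [one_mul]
        exact hS

/-- F7. a symmetric function summed over `i < j` is half of the sum over `i ≠ j` -/
theorem sum_lt_eq_half (E : Fin N → Fin N → ℝ) (hE : ∀ i j, E i j = E j i) :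
    2 * ∑ i : Fin N, ∑ j : Fin N, (if i < j then E i j else 0) =
      ∑ i : Fin N, ∑ j : Fin N, (if i ≠ j then E i j else 0) := by
  have h1 : ∑ i : Fin N, ∑ j : Fin N, (if i < j then E i j else 0) =
      ∑ i : Fin N, ∑ j : Fin N, (if j < i then E i j else 0) := by
    rw [Finset.sum_comm]
    apply Finset.sum_congr rfl
    intro i _
    apply Finset.sum_congr rfl
    intro j _
    rw [hE]
  rw [two_mul]
  nth_rewrite 2 [h1]
  rw [← Finset.sum_add_distrib]
  apply Finset.sum_congr rfl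
  intro i _
  rw [← Finset.sum_add_distrib]
  apply Finset.sum_congr rfl
  intro j _
  rcases lt_trichotomy i j with h | h | h
  · simp [h, h.ne, not_lt.2 h.le]
  · simp [h]
  · simp [h, h.ne', not_lt.2 h.le]

/-- F8 (assembly).  With `E i j = ∑ r, [r i = 0] 4 wt r dM Q (r j) ‖ψ r‖^2`: by `ip_ham`,
`ip_pairProj` the energy is `∑_{i<j} E i j`; `E i j = E j i` for `i ≠ j` by `pairProj_symm` and
`ip_pairProj`; so by `sum_lt_eq_half` (applied to `fun i j => if i ≠ j then E i j else 0`) the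
energy is `(1/2) ∑_{i ≠ j} E i j = ∑ r, 2 wt r ‖ψ r‖^2 ∑_{i ≠ j} [r i = 0] dM Q (r j)`; if `r` is
not injective `ψ r = 0` (`Antisymm.eq_zero`), otherwise use `sum_dM_le`; conclude by `ip_self`. -/
theorem energy_le (ψ : Vec N Q) (hA : Antisymm ψ) (hB : Bdry ψ) :
    (ip ψ (ham ψ)).re ≤ 2 * (∑ M ∈ range (Q + 1), dM Q M) * (ip ψ ψ).re := by
  classical
  set D : ℝ := ∑ M ∈ range (Q + 1), dM Q M with hD
  set E : Fin N → Fin N → ℝ := fun i j =>
    ∑ r : Cfg N Q, if (r i : ℕ) = 0 then 4 * wt r * dM Q (r j) * ‖ψ r‖ ^ 2 else 0 with hE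
  have hip : ∀ i j : Fin N, i ≠ j → ip ψ (pairProj i j ψ) = ((E i j : ℝ) : ℂ) :=
    fun i j hij => ip_pairProj ψ hB hij
  have hsymm : ∀ i j : Fin N, i ≠ j → E i j = E j i := by
    intro i j hij
    have h1 := hip i j hij
    have h2 := hip j i hij.symm
    rw [pairProj_symm hij] at h2
    exact Complex.ofReal_injective (h1.symm.trans h2)
  set E' : Fin N → Fin N → ℝ := fun i j => if i ≠ j then E i j else 0 with hE'
  have hsymm' : ∀ i j, E' i j = E' j i := by
    intro i j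
    by_cases hij : i = j
    · subst hij
      rfl
    · have hji : j ≠ i := fun h => hij h.symm
      simp only [hE', ne_eq, hij, hji, not_false_eq_true, if_true]
      exact hsymm i j hij
  set S : ℝ := ∑ i : Fin N, ∑ j : Fin N, (if i < j then E' i j else 0) with hS
  have hham : ip ψ (ham ψ) = ((S : ℝ) : ℂ) := by
    rw [ip_ham, hS]
    push_cast
    refine Finset.sum_congr rfl fun i _ => Finset.sum_congr rfl fun j _ => ?_
    by_cases hlt : i < j
    · have hne : i ≠ j := ne_of_lt hlt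
      simp only [hlt, if_true, hE', ne_eq, hne, not_false_eq_true]
      exact hip i j hne
    · simp only [hlt, if_false, Complex.ofReal_zero]
  have h2S : 2 * S = ∑ r : Cfg N Q, 4 * wt r * ‖ψ r‖ ^ 2 *
      ∑ i : Fin N, ∑ j : Fin N, (if i ≠ j ∧ (r i : ℕ) = 0 then dM Q (r j) else 0) := by
    rw [hS, sum_lt_eq_half E' hsymm']
    have e1 : ∀ i j : Fin N, (if i ≠ j then E' i j else 0) =
        ∑ r : Cfg N Q, 4 * wt r * ‖ψ r‖ ^ 2 *
          (if i ≠ j ∧ (r i : ℕ) = 0 then dM Q (r j) else 0) := by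
      intro i j
      by_cases hij : i = j
      · simp [hij]
      · simp only [hE', hE, ne_eq, hij, not_false_eq_true, if_true, true_and]
        refine Finset.sum_congr rfl fun r _ => ?_
        by_cases hr : (r i : ℕ) = 0
        · simp only [hr, if_true]
          ring
        · simp only [hr, if_false, mul_zero]
    simp only [e1]
    have e2 : ∀ i : Fin N, ∑ j : Fin N, ∑ r : Cfg N Q, 4 * wt r * ‖ψ r‖ ^ 2 *
          (if i ≠ j ∧ (r i : ℕ) = 0 then dM Q (r j) else 0) =
        ∑ r : Cfg N Q, ∑ j : Fin N, 4 * wt r * ‖ψ r‖ ^ 2 *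
          (if i ≠ j ∧ (r i : ℕ) = 0 then dM Q (r j) else 0) := fun i => Finset.sum_comm
    simp only [e2]
    rw [Finset.sum_comm]
    refine Finset.sum_congr rfl fun r _ => ?_
    rw [Finset.mul_sum]
    refine Finset.sum_congr rfl fun i _ => ?_
    rw [Finset.mul_sum]
  have hself : (ip ψ ψ).re = ∑ x : Cfg N Q, wt x * ‖ψ x‖ ^ 2 := by
    rw [ip_self, Complex.ofReal_re]
  have hbound : 2 * S ≤ ∑ r : Cfg N Q, 4 * wt r * ‖ψ r‖ ^ 2 * D := by
    rw [h2S]
    refine Finset.sum_le_sum fun r _ => ?_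
    by_cases hr : Function.Injective r
    · have h1 := sum_dM_le r hr
      have h2 : 0 ≤ 4 * wt r * ‖ψ r‖ ^ 2 := by
        have := (wt_pos r).le
        positivity
      exact mul_le_mul_of_nonneg_left h1 h2
    · have hz : ψ r = 0 := by
        unfold Function.Injective at hr
        simp only [not_forall] at hr
        obtain ⟨i, j, hx, hij⟩ := hr
        exact hA.eq_zero hij hx
      simp [hz]
  rw [hham, Complex.ofReal_re, hself]
  have e3 : ∑ r : Cfg N Q, 4 * wt r * ‖ψ r‖ ^ 2 * D = 4 * D * ∑ x : Cfg N Q, wt x * ‖ψ x‖ ^ 2 := by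
    rw [Finset.mul_sum]
    refine Finset.sum_congr rfl fun r _ => ?_
    ring
  rw [e3] at hbound
  linarith

end Vale.Agent.Lib.P359
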