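import Vale.Agent.Lib.P359.Defs

/-! # P359: facts on the coefficients of the Laughlin polynomial -/

namespace Vale.Agent.Lib.P359

open Finset

/-- L0. for `i ≠ j` the polynomial `(X i - X j)^3` divides the Laughlin polynomial
(`Finset.dvd_prod_of_mem` twice; if `j < i` use `(X j - X i)^3 = -(X i - X j)^3`) -/
theorem cube_dvd_laughlinPoly (N : ℕ) {i j : Fin N} (hij : i ≠ j) :
    (MvPolynomial.X i - MvPolynomial.X j : MvPolynomial (Fin N) ℂ) ^ 3 ∣ laughlinPoly N := by
  have key : ∀ {i j : Fin N}, i < j →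
      (MvPolynomial.X i - MvPolynomial.X j : MvPolynomial (Fin N) ℂ) ^ 3 ∣ laughlinPoly N := by
    intro i j hij
    unfold laughlinPoly
    refine dvd_trans ?_ (Finset.dvd_prod_of_mem
      (fun i : Fin N => ∏ j ∈ Ioi i,
        (MvPolynomial.X i - MvPolynomial.X j : MvPolynomial (Fin N) ℂ) ^ 3) (Finset.mem_univ i))
    exact Finset.dvd_prod_of_mem
      (fun j : Fin N => (MvPolynomial.X i - MvPolynomial.X j : MvPolynomial (Fin N) ℂ) ^ 3)
      (Finset.mem_Ioi.2 hij)
  rcases lt_or_gt_of_ne hij with h | h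
  · exact key h
  · have h1 := key h
    have h2 : (MvPolynomial.X i - MvPolynomial.X j : MvPolynomial (Fin N) ℂ) ^ 3 =
        -(MvPolynomial.X j - MvPolynomial.X i : MvPolynomial (Fin N) ℂ) ^ 3 := by ring
    rw [h2]
    exact (neg_dvd).2 h1

theorem rename_laughlinPoly (N : ℕ) (σ : Equiv.Perm (Fin N)) :
    MvPolynomial.rename σ (laughlinPoly N) =
      (((Equiv.Perm.sign σ : ℤˣ) : ℤ) : MvPolynomial (Fin N) ℂ) * laughlinPoly N := by
  unfold laughlinPoly
  rw [map_prod]
  simp only [map_prod, map_pow, map_sub, MvPolynomial.rename_X]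
  exact σ.prod_Ioi_comp_eq_sign_mul_prod
    (f := fun i j => (MvPolynomial.X i - MvPolynomial.X j : MvPolynomial (Fin N) ℂ) ^ 3)
    (fun i j => by ring)

/-- L1. antisymmetry.  Plan: `MvPolynomial.rename σ (laughlinPoly N) = sign σ • laughlinPoly N` by
`Equiv.Perm.prod_Ioi_comp_eq_sign_mul_prod` with `f i j = (X i - X j)^3`; coefficients of a
renaming by `MvPolynomial.coeff_rename_mapDomain` (σ injective); the finsupp of `y` is the
`Finsupp.mapDomain σ` of the finsupp of `y ∘ σ`. -/
theorem lcoef_perm (N : ℕ) (σ : Equiv.Perm (Fin N)) (y : Fin N → ℕ) :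
    lcoef N (y ∘ σ) = (((Equiv.Perm.sign σ : ℤˣ) : ℤ) : ℂ) * lcoef N y := by
  unfold lcoef
  have h1 := MvPolynomial.coeff_rename_mapDomain (σ : Fin N → Fin N) σ.injective (laughlinPoly N)
    (Finsupp.equivFunOnFinite.symm (y ∘ σ))
  have h2 : Finsupp.mapDomain (σ : Fin N → Fin N) (Finsupp.equivFunOnFinite.symm (y ∘ σ))
      = Finsupp.equivFunOnFinite.symm y := by
    ext a
    have : a = σ (σ.symm a) := by simp
    rw [this, Finsupp.mapDomain_apply σ.injective]
    simp
  rw [h2, rename_laughlinPoly] at h1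
  rw [← h1]
  have h3 : (((Equiv.Perm.sign σ : ℤˣ) : ℤ) : MvPolynomial (Fin N) ℂ)
      = MvPolynomial.C (((Equiv.Perm.sign σ : ℤˣ) : ℤ) : ℂ) := by
    simp
  rw [h3, MvPolynomial.coeff_C_mul]

/-- L1'. Pauli principle (from `lcoef_perm` with `Equiv.swap i j`) -/
theorem lcoef_eq_zero_of_eq (N : ℕ) {i j : Fin N} (hij : i ≠ j) {y : Fin N → ℕ}
    (h : y i = y j) : lcoef N y = 0 := by
  have h1 := lcoef_perm N (Equiv.swap i j) y
  have h2 : y ∘ (Equiv.swap i j) = y := by
    funext a
    simp only [Function.comp_apply]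
    by_cases hai : a = i
    · subst hai; rw [Equiv.swap_apply_left]; exact h.symm
    · by_cases haj : a = j
      · subst haj; rw [Equiv.swap_apply_right]; exact h
      · rw [Equiv.swap_apply_of_ne_of_ne hai haj]
  rw [h2, Equiv.Perm.sign_swap hij] at h1
  have h3 : lcoef N y = - lcoef N y := by
    simpa using h1
  have h4 : (2 : ℂ) * lcoef N y = 0 := by linear_combination h3
  simpa using h4

/-- L2a. a purely combinatorial identity: second difference against the linear weight `a - b`.
(cases `K = 0`, `K = 1`, `K = n + 2`; shift the three sums to `antidiagonal n`,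
`Finset.Nat.antidiagonal_succ`, `Finset.Nat.antidiagonal_succ'`; then
`(a + 2 - b) - 2 (a - b) + (a - b - 2) = 0`.) -/
theorem sum_antidiagonal_second_diff (r : ℕ → ℕ → ℂ) (K : ℕ) :
    ∑ p ∈ antidiagonal K, ((p.1 : ℂ) - (p.2 : ℂ)) *
      ((if 2 ≤ p.1 then r (p.1 - 2) p.2 else 0) -
        2 * (if 1 ≤ p.1 ∧ 1 ≤ p.2 then r (p.1 - 1) (p.2 - 1) else 0) +
        (if 2 ≤ p.2 then r p.1 (p.2 - 2) else 0)) = 0 := by
  rcases K with _ | _ | n
  · simp
  · simp [Finset.Nat.antidiagonal_succ]
  · have hA : ∑ p ∈ antidiagonal (n + 2), ((p.1 : ℂ) - (p.2 : ℂ)) *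
        (if 2 ≤ p.1 then r (p.1 - 2) p.2 else 0)
        = ∑ q ∈ antidiagonal n, (((q.1 : ℂ) + 2) - (q.2 : ℂ)) * r q.1 q.2 := by
      rw [Finset.Nat.sum_antidiagonal_succ, Finset.Nat.sum_antidiagonal_succ]
      simp
      apply Finset.sum_congr rfl
      intro q _
      ring
    have hB : ∑ p ∈ antidiagonal (n + 2), ((p.1 : ℂ) - (p.2 : ℂ)) *
        (if 1 ≤ p.1 ∧ 1 ≤ p.2 then r (p.1 - 1) (p.2 - 1) else 0)
        = ∑ q ∈ antidiagonal n, ((q.1 : ℂ) - (q.2 : ℂ)) * r q.1 q.2 := by
      rw [Finset.Nat.sum_antidiagonal_succ, Finset.Nat.sum_antidiagonal_succ']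
      simp
    have hC : ∑ p ∈ antidiagonal (n + 2), ((p.1 : ℂ) - (p.2 : ℂ)) *
        (if 2 ≤ p.2 then r p.1 (p.2 - 2) else 0)
        = ∑ q ∈ antidiagonal n, ((q.1 : ℂ) - ((q.2 : ℂ) + 2)) * r q.1 q.2 := by
      rw [Finset.Nat.sum_antidiagonal_succ', Finset.Nat.sum_antidiagonal_succ']
      simp
      apply Finset.sum_congr rfl
      intro q _
      ring
    have hsplit : ∀ p : ℕ × ℕ, ((p.1 : ℂ) - (p.2 : ℂ)) *
      ((if 2 ≤ p.1 then r (p.1 - 2) p.2 else 0) -
        2 * (if 1 ≤ p.1 ∧ 1 ≤ p.2 then r (p.1 - 1) (p.2 - 1) else 0) +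
        (if 2 ≤ p.2 then r p.1 (p.2 - 2) else 0))
      = ((p.1 : ℂ) - (p.2 : ℂ)) * (if 2 ≤ p.1 then r (p.1 - 2) p.2 else 0)
        - 2 * (((p.1 : ℂ) - (p.2 : ℂ)) *
          (if 1 ≤ p.1 ∧ 1 ≤ p.2 then r (p.1 - 1) (p.2 - 1) else 0))
        + ((p.1 : ℂ) - (p.2 : ℂ)) * (if 2 ≤ p.2 then r p.1 (p.2 - 2) else 0) := by
      intro p; ring
    simp only [hsplit]
    rw [Finset.sum_add_distrib, Finset.sum_sub_distrib, ← Finset.mul_sum, hA, hB, hC,
      Finset.mul_sum, ← Finset.sum_sub_distrib, ← Finset.sum_add_distrib]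
    apply Finset.sum_eq_zero
    intro q _
    ring

private theorem coeff_X_mul_fun {N : ℕ} (k : Fin N) (R : MvPolynomial (Fin N) ℂ) (g : Fin N → ℕ) :
    MvPolynomial.coeff (Finsupp.equivFunOnFinite.symm g) (MvPolynomial.X k * R) =
      if 1 ≤ g k then MvPolynomial.coeff (Finsupp.equivFunOnFinite.symm
        (Function.update g k (g k - 1))) R else 0 := by
  rw [MvPolynomial.coeff_X_mul']
  have h1 : (k ∈ (Finsupp.equivFunOnFinite.symm g).support) ↔ 1 ≤ g k := by
    rw [Finsupp.mem_support_iff]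
    show g k ≠ 0 ↔ 1 ≤ g k
    omega
  have h2 : Finsupp.equivFunOnFinite.symm g - Finsupp.single k 1 =
      Finsupp.equivFunOnFinite.symm (Function.update g k (g k - 1)) := by
    ext l
    show g l - (Finsupp.single k 1 : Fin N →₀ ℕ) l = Function.update g k (g k - 1) l
    by_cases hl : l = k
    · subst hl
      simp
    · rw [Function.update_of_ne hl, Finsupp.single_eq_of_ne hl]
      simp
  by_cases h : 1 ≤ g k
  · rw [if_pos (h1.2 h), if_pos h, h2]
  · rw [if_neg (fun hh => h (h1.1 hh)), if_neg h]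

private theorem coeff_Xi_mul {N : ℕ} {i j : Fin N} (hij : i ≠ j) (R : MvPolynomial (Fin N) ℂ)
    (y : Fin N → ℕ) (a b : ℕ) :
    MvPolynomial.coeff (Finsupp.equivFunOnFinite.symm (Function.update (Function.update y i a) j b))
        (MvPolynomial.X i * R) =
      if 1 ≤ a then MvPolynomial.coeff (Finsupp.equivFunOnFinite.symm
        (Function.update (Function.update y i (a - 1)) j b)) R else 0 := by
  rw [coeff_X_mul_fun]
  have h1 : Function.update (Function.update y i a) j b i = a := by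
    rw [Function.update_of_ne hij, Function.update_self]
  have h2 : Function.update (Function.update (Function.update y i a) j b) i (a - 1) =
      Function.update (Function.update y i (a - 1)) j b := by
    rw [Function.update_comm hij.symm, Function.update_idem]
  rw [h1, h2]

private theorem coeff_Xj_mul {N : ℕ} {i j : Fin N} (R : MvPolynomial (Fin N) ℂ)
    (y : Fin N → ℕ) (a b : ℕ) :
    MvPolynomial.coeff (Finsupp.equivFunOnFinite.symm (Function.update (Function.update y i a) j b))
        (MvPolynomial.X j * R) =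
      if 1 ≤ b then MvPolynomial.coeff (Finsupp.equivFunOnFinite.symm
        (Function.update (Function.update y i a) j (b - 1))) R else 0 := by
  rw [coeff_X_mul_fun]
  rw [Function.update_self, Function.update_idem]

/-- L2b. coefficients of `(X i - X j)^2 * R`
(`(X i - X j)^2 * R = X i * (X i * R) - 2 * (X i * (X j * R)) + X j * (X j * R)` and
`MvPolynomial.coeff_X_mul'`) -/
theorem coeff_sq_mul {N : ℕ} {i j : Fin N} (hij : i ≠ j) (R : MvPolynomial (Fin N) ℂ)
    (y : Fin N → ℕ) (a b : ℕ) :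
    MvPolynomial.coeff (Finsupp.equivFunOnFinite.symm (Function.update (Function.update y i a) j b))
        ((MvPolynomial.X i - MvPolynomial.X j) ^ 2 * R) =
      (if 2 ≤ a then MvPolynomial.coeff (Finsupp.equivFunOnFinite.symm
          (Function.update (Function.update y i (a - 2)) j b)) R else 0) -
        2 * (if 1 ≤ a ∧ 1 ≤ b then MvPolynomial.coeff (Finsupp.equivFunOnFinite.symm
          (Function.update (Function.update y i (a - 1)) j (b - 1))) R else 0) +
        (if 2 ≤ b then MvPolynomial.coeff (Finsupp.equivFunOnFinite.symm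
          (Function.update (Function.update y i a) j (b - 2))) R else 0) := by
  have h0 : (MvPolynomial.X i - MvPolynomial.X j : MvPolynomial (Fin N) ℂ) ^ 2 * R =
      MvPolynomial.X i * (MvPolynomial.X i * R) -
        (MvPolynomial.X i * (MvPolynomial.X j * R) + MvPolynomial.X i * (MvPolynomial.X j * R)) +
        MvPolynomial.X j * (MvPolynomial.X j * R) := by ring
  rw [h0, MvPolynomial.coeff_add, MvPolynomial.coeff_sub, MvPolynomial.coeff_add,
    coeff_Xi_mul hij, coeff_Xi_mul hij, coeff_Xj_mul, coeff_Xi_mul hij, coeff_Xj_mul, coeff_Xj_mul]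
  have e1 : a - 1 - 1 = a - 2 := by omega
  have e2 : b - 1 - 1 = b - 2 := by omega
  rw [e1, e2, ← two_mul]
  congr 1
  · congr 1
    · by_cases h : 2 ≤ a
      · rw [if_pos (by omega : 1 ≤ a), if_pos (by omega : 1 ≤ a - 1), if_pos h]
      · rw [if_neg h]
        by_cases h' : 1 ≤ a
        · rw [if_pos h', if_neg (by omega)]
        · rw [if_neg h']
    · congr 1
      by_cases h : 1 ≤ a
      · by_cases h' : 1 ≤ b
        · rw [if_pos h, if_pos h', if_pos ⟨h, h'⟩]
        · rw [if_pos h, if_neg h', if_neg (fun hh => h' hh.2)]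
      · rw [if_neg h, if_neg (fun hh => h hh.1)]
  · by_cases h : 2 ≤ b
    · rw [if_pos (by omega : 1 ≤ b), if_pos (by omega : 1 ≤ b - 1), if_pos h]
    · rw [if_neg h]
      by_cases h' : 1 ≤ b
      · rw [if_pos h', if_neg (by omega)]
      · rw [if_neg h']

/-- L2. the Laughlin polynomial is annihilated by the pairing with `w_K`
(`cube_dvd_laughlinPoly`, `coeff_sq_mul`, `sum_antidiagonal_second_diff`) -/
theorem lcoef_kernel (N : ℕ) {i j : Fin N} (hij : i ≠ j) (y : Fin N → ℕ) (K : ℕ) :
    ∑ p ∈ antidiagonal K, ((p.1 : ℂ) - (p.2 : ℂ)) *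
      lcoef N (Function.update (Function.update y i p.1) j p.2) = 0 := by
  obtain ⟨R', hR⟩ := cube_dvd_laughlinPoly N hij
  have h1 : laughlinPoly N = (MvPolynomial.X i - MvPolynomial.X j) ^ 2 *
      ((MvPolynomial.X i - MvPolynomial.X j) * R') := by
    rw [hR]; ring
  rw [← sum_antidiagonal_second_diff (fun a b => MvPolynomial.coeff (Finsupp.equivFunOnFinite.symm
    (Function.update (Function.update y i a) j b)) ((MvPolynomial.X i - MvPolynomial.X j) * R')) K]
  refine Finset.sum_congr rfl (fun p _ => ?_)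
  congr 1
  unfold lcoef
  rw [h1, coeff_sq_mul hij]

/-- L3. no monomial has the exponents `0` and `1`: write the polynomial as
`(X l - X i)^3 * R = X l * A - X i ^ 3 * R`; the coefficient of `X l * A` vanishes as `y l = 0`
(`MvPolynomial.coeff_X_mul'`), that of `X i ^ 3 * R` as `y i < 3`
(`MvPolynomial.coeff_monomial_mul'` or three times `coeff_X_mul'`). -/
theorem lcoef_eq_zero_of_zero_one (N : ℕ) {i l : Fin N} (hil : i ≠ l) {y : Fin N → ℕ}
    (hl : y l = 0) (hi : y i = 1) : lcoef N y = 0 := by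
  obtain ⟨R, hR⟩ := cube_dvd_laughlinPoly N (Ne.symm hil)
  have h1 : laughlinPoly N =
      MvPolynomial.X l * ((MvPolynomial.X l ^ 2 - 3 * MvPolynomial.X l * MvPolynomial.X i +
        3 * MvPolynomial.X i ^ 2) * R) -
      MvPolynomial.X i * (MvPolynomial.X i * (MvPolynomial.X i * R)) := by
    rw [hR]
    ring
  unfold lcoef
  rw [h1, MvPolynomial.coeff_sub, MvPolynomial.coeff_X_mul', MvPolynomial.coeff_X_mul',
    MvPolynomial.coeff_X_mul']
  have hl' : l ∉ (Finsupp.equivFunOnFinite.symm y).support := by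
    simp [hl]
  have hi' : i ∉ (Finsupp.equivFunOnFinite.symm y - Finsupp.single i 1).support := by
    simp [hi]
  rw [if_neg hl', if_neg hi']
  simp

theorem laughlinPoly_isHomogeneous (N : ℕ) :
    (laughlinPoly N).IsHomogeneous (∑ i : Fin N, ∑ _j ∈ Ioi i, 3) := by
  unfold laughlinPoly
  apply MvPolynomial.IsHomogeneous.prod
  intro i _
  apply MvPolynomial.IsHomogeneous.prod
  intro j _
  have h : (MvPolynomial.X i - MvPolynomial.X j : MvPolynomial (Fin N) ℂ).IsHomogeneous 1 :=
    (MvPolynomial.isHomogeneous_X ℂ i).sub (MvPolynomial.isHomogeneous_X ℂ j)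
  simpa using h.pow 3

/-- L4. homogeneity (`MvPolynomial.IsHomogeneous.prod`, `.pow`, `isHomogeneous_X`, `.sub`;
`IsHomogeneous` gives `Finsupp.degree`/`weight` of the exponent) -/
theorem lcoef_homogeneous (N : ℕ) :
    ∃ D : ℕ, ∀ y : Fin N → ℕ, lcoef N y ≠ 0 → ∑ i, y i = D := by
  refine ⟨∑ i : Fin N, ∑ _j ∈ Ioi i, 3, fun y hy => ?_⟩
  have h := laughlinPoly_isHomogeneous N hy
  rw [← h, Finsupp.weight_apply, Finsupp.sum_fintype _ _ (by simp)]
  simp

/-- L5. some monomial does not contain the variable `l`.  Plan: the algebra homomorphism `φ` with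
`X l ↦ 0`, `X i ↦ X i` (`MvPolynomial.aeval`) maps the polynomial to a product of nonzero factors
(`X i - X j`, `- X j` or `X i`), so to a nonzero polynomial; but `φ` kills every monomial that
contains `X l` (`MvPolynomial.as_sum`/`aeval_monomial`). -/
theorem exists_lcoef_ne_zero (N : ℕ) (l : Fin N) :
    ∃ y : Fin N → ℕ, y l = 0 ∧ lcoef N y ≠ 0 := by
  classical
  by_contra hcon
  push Not at hcon
  set f : Fin N → MvPolynomial (Fin N) ℂ := fun i => if i = l then 0 else MvPolynomial.X i with hf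
  -- the image of the polynomial vanishes
  have h0 : MvPolynomial.aeval f (laughlinPoly N) = 0 := by
    rw [MvPolynomial.aeval_def, MvPolynomial.eval₂_eq']
    refine Finset.sum_eq_zero (fun d hd => ?_)
    have hd' : MvPolynomial.coeff d (laughlinPoly N) ≠ 0 := MvPolynomial.mem_support_iff.mp hd
    have hdl : d l ≠ 0 := by
      intro h
      apply hd'
      have := hcon (fun i => d i) h
      unfold lcoef at this
      have he : Finsupp.equivFunOnFinite.symm (fun i => d i) = d := by
        ext i; rfl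
      rwa [he] at this
    have : ∏ i, f i ^ d i = 0 := by
      refine Finset.prod_eq_zero (Finset.mem_univ l) ?_
      simp [hf, hdl]
    rw [this, mul_zero]
  -- but it is a product of nonzero factors
  have h1 : MvPolynomial.aeval f (laughlinPoly N) ≠ 0 := by
    unfold laughlinPoly
    rw [map_prod]
    refine Finset.prod_ne_zero_iff.mpr (fun i _ => ?_)
    rw [map_prod]
    refine Finset.prod_ne_zero_iff.mpr (fun j hj => ?_)
    have hij : i ≠ j := ne_of_lt (Finset.mem_Ioi.mp hj)
    rw [map_pow, map_sub, MvPolynomial.aeval_X, MvPolynomial.aeval_X]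
    refine pow_ne_zero 3 ?_
    simp only [hf]
    by_cases hi : i = l
    · have hj' : j ≠ l := fun h => hij (hi.trans h.symm)
      simp only [hi, hj', if_true, if_false, zero_sub, ne_eq, neg_eq_zero]
      exact MvPolynomial.X_ne_zero j
    · by_cases hj' : j = l
      · simp only [hi, hj', if_true, if_false, sub_zero, ne_eq]
        exact MvPolynomial.X_ne_zero i
      · simp only [hi, hj', if_false, ne_eq, sub_eq_zero]
        intro h
        exact hij (MvPolynomial.X_injective h)
  exact h1 h0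

theorem lcoef_degree_count (N : ℕ) (l : Fin N) :
    ∑ i : Fin N, ∑ j ∈ Ioi i, ((if l = i then 1 else 0) + (if l = j then 1 else 0) : ℕ)
      = N - 1 := by
  have h1 : ∀ i : Fin N, ∑ j ∈ Ioi i, ((if l = i then 1 else 0) + (if l = j then 1 else 0) : ℕ)
      = (if l = i then (Ioi i).card else 0) + (if i < l then 1 else 0) := by
    intro i
    rw [Finset.sum_add_distrib]
    congr 1
    · by_cases h : l = i
      · simp [h]
      · simp [h]
    · rw [Finset.sum_ite_eq]
      simp only [Finset.mem_Ioi]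
  rw [Finset.sum_congr rfl (fun i _ => h1 i), Finset.sum_add_distrib, Finset.sum_ite_eq]
  simp only [Finset.mem_univ, if_true]
  have h2 : ∑ i : Fin N, (if i < l then 1 else 0 : ℕ) = (Iio l).card := by
    rw [Finset.card_eq_sum_ones, ← Finset.sum_filter]
    congr 1
    ext i
    simp
  rw [h2, Fin.card_Ioi, Fin.card_Iio]
  have := l.isLt
  omega

/-- L6. the degree in each variable is at most `3 (N - 1)`
(`MvPolynomial.monomial_le_degreeOf`, `degreeOf_prod_le`, `degreeOf_pow_le`, `degreeOf_sub_le`,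
`degreeOf_X`; `∑ i, ∑ j ∈ Ioi i, ([l = i] + [l = j]) = N - 1`) -/
theorem lcoef_degree (N : ℕ) {y : Fin N → ℕ} (h : lcoef N y ≠ 0) (l : Fin N) :
    y l ≤ 3 * (N - 1) := by
  have hmem : Finsupp.equivFunOnFinite.symm y ∈ (laughlinPoly N).support :=
    MvPolynomial.mem_support_iff.mpr h
  have h1 := MvPolynomial.monomial_le_degreeOf l hmem
  have hy : (Finsupp.equivFunOnFinite.symm y) l = y l := rfl
  rw [hy] at h1
  refine le_trans h1 ?_
  have key : ∀ i j : Fin N,
      MvPolynomial.degreeOf l ((MvPolynomial.X i - MvPolynomial.X j : MvPolynomial (Fin N) ℂ) ^ 3)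
        ≤ 3 * ((if l = i then 1 else 0) + (if l = j then 1 else 0)) := by
    intro i j
    refine le_trans (MvPolynomial.degreeOf_pow_le l _ 3) (Nat.mul_le_mul_left 3 ?_)
    refine le_trans (MvPolynomial.degreeOf_sub_le l _ _) ?_
    rw [MvPolynomial.degreeOf_X, MvPolynomial.degreeOf_X]
    split_ifs <;> simp
  unfold laughlinPoly
  refine le_trans (MvPolynomial.degreeOf_prod_le l _ _) ?_
  rw [← lcoef_degree_count N l, Finset.mul_sum]
  refine Finset.sum_le_sum (fun i _ => ?_)
  refine le_trans (MvPolynomial.degreeOf_prod_le l _ _) ?_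
  rw [Finset.mul_sum]
  exact Finset.sum_le_sum (fun j _ => key i j)

end Vale.Agent.Lib.P359
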