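import Vale.Agent.Lib.P359.Defs

/-! # P359: the norms `nK` in closed form and the sum of the constants `dM` -/

namespace Vale.Agent.Lib.P359

open Finset

theorem vandermonde_real (Q K : ℕ) :
    ∑ p ∈ antidiagonal K, ((Q.choose p.1 : ℝ) * (Q.choose p.2 : ℝ)) = ((2 * Q).choose K : ℝ) := by
  rw [two_mul, Nat.add_choose_eq]
  push_cast
  rfl

theorem nK_split (Q K : ℕ) :
    nK Q K = (K : ℝ) ^ 2 * ((2 * Q).choose K : ℝ)
      - 4 * ∑ p ∈ antidiagonal K,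
        ((p.1 : ℝ) * (Q.choose p.1 : ℝ)) * ((p.2 : ℝ) * (Q.choose p.2 : ℝ)) := by
  rw [← vandermonde_real, Finset.mul_sum, Finset.mul_sum, ← Finset.sum_sub_distrib]
  unfold nK
  refine Finset.sum_congr rfl (fun p hp => ?_)
  have h : (K : ℝ) = (p.1 : ℝ) + (p.2 : ℝ) := by
    rw [← mem_antidiagonal.1 hp]; push_cast; ring
  rw [h]
  ring

theorem weighted_vandermonde (q k : ℕ) :
    ∑ p ∈ antidiagonal (k + 2),
        ((p.1 : ℝ) * ((q + 1).choose p.1 : ℝ)) * ((p.2 : ℝ) * ((q + 1).choose p.2 : ℝ))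
      = ((q : ℝ) + 1) ^ 2 * ((2 * q).choose k : ℝ) := by
  rw [Finset.Nat.sum_antidiagonal_succ, Finset.Nat.sum_antidiagonal_succ', ← vandermonde_real,
    Finset.mul_sum]
  simp only [Nat.cast_zero, zero_mul, mul_zero, zero_add]
  refine Finset.sum_congr rfl (fun p _ => ?_)
  have h1 : (((p.1 + 1 : ℕ) : ℝ)) * ((q + 1).choose (p.1 + 1) : ℝ)
      = ((q : ℝ) + 1) * (q.choose p.1 : ℝ) := by
    have := Nat.add_one_mul_choose_eq q p.1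
    have h' : (((q + 1) * q.choose p.1 : ℕ) : ℝ) = (((q + 1).choose (p.1 + 1) * (p.1 + 1) : ℕ) : ℝ) := by
      exact_mod_cast this
    push_cast at h' ⊢
    linarith
  have h2 : (((p.2 + 1 : ℕ) : ℝ)) * ((q + 1).choose (p.2 + 1) : ℝ)
      = ((q : ℝ) + 1) * (q.choose p.2 : ℝ) := by
    have := Nat.add_one_mul_choose_eq q p.2
    have h' : (((q + 1) * q.choose p.2 : ℕ) : ℝ) = (((q + 1).choose (p.2 + 1) * (p.2 + 1) : ℕ) : ℝ) := by
      exact_mod_cast this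
    push_cast at h' ⊢
    linarith
  rw [h1, h2]
  ring

/-- Plan: `(a - b)^2 = (a + b)^2 - 4 a b`.  Vandermonde `Nat.add_choose_eq` gives
`∑_{a+b=K} C(Q,a) C(Q,b) = C(2Q,K)`; with `a * C(Q,a) = Q * C(Q-1,a-1)` it also gives
`∑_{a+b=K} a b C(Q,a) C(Q,b) = Q^2 C(2Q-2,K-2)`, and
`C(2Q-2,K-2) * (2Q (2Q-1)) = C(2Q,K) * (K (K-1))`. (True for all `K`, both sides vanish for
`K = 0` and for `K ≥ 2 Q`.) -/
theorem nK_eq (Q K : ℕ) (hQ : 1 ≤ Q) :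
    nK Q K * (2 * (Q : ℝ) - 1) = ((2 * Q).choose K : ℝ) * ((K : ℝ) * (2 * (Q : ℝ) - (K : ℝ))) := by
  obtain ⟨q, rfl⟩ : ∃ q, Q = q + 1 := ⟨Q - 1, by omega⟩
  rcases K with _ | _ | k
  · simp [nK]
  · rw [nK_split]
    simp [Finset.Nat.antidiagonal_succ]
  · rw [nK_split, weighted_vandermonde]
    have h1 : (((2 * q + 1) * (2 * q).choose k : ℕ) : ℝ)
        = (((2 * q + 1).choose (k + 1) * (k + 1) : ℕ) : ℝ) := by
      exact_mod_cast Nat.add_one_mul_choose_eq (2 * q) k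
    have h2 : (((2 * q + 1 + 1) * (2 * q + 1).choose (k + 1) : ℕ) : ℝ)
        = (((2 * q + 1 + 1).choose (k + 1 + 1) * (k + 1 + 1) : ℕ) : ℝ) := by
      exact_mod_cast Nat.add_one_mul_choose_eq (2 * q + 1) (k + 1)
    have e : 2 * (q + 1) = 2 * q + 1 + 1 := by ring
    rw [e]
    push_cast at h1 h2 ⊢
    obtain ⟨A, hA⟩ : ∃ A : ℝ, A = ((2 * q).choose k : ℝ) := ⟨_, rfl⟩
    obtain ⟨B, hB⟩ : ∃ B : ℝ, B = ((2 * q + 1).choose (k + 1) : ℝ) := ⟨_, rfl⟩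
    obtain ⟨C, hC⟩ : ∃ C : ℝ, C = ((2 * q + 1 + 1).choose (k + 1 + 1) : ℝ) := ⟨_, rfl⟩
    rw [← hA, ← hB] at h1
    rw [← hB, ← hC] at h2
    rw [← hA, ← hC]
    have h3 : (2 * (q : ℝ) + 1 + 1) * ((2 * (q : ℝ) + 1) * A) = C * ((k : ℝ) + 1 + 1) * ((k : ℝ) + 1) := by
      rw [h1, ← mul_assoc, h2]
    linear_combination (-2 * ((q : ℝ) + 1)) * h3

theorem nK_nonneg (Q K : ℕ) : 0 ≤ nK Q K := by
  unfold nK
  positivity

theorem dM_nonneg (Q M : ℕ) : 0 ≤ dM Q M := by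
  unfold dM
  have := nK_nonneg Q M
  positivity

/-- auxiliary: closed form of `dM` -/
theorem dM_closed (Q M : ℕ) (hQ : 1 ≤ Q) (hM : M ≤ Q) :
    dM Q M = (2 * (Q : ℝ) - 1) *
      ((M : ℝ) * (Q.choose M : ℝ) / ((2 * (Q : ℝ) - (M : ℝ)) * ((2 * Q).choose M : ℝ))) := by
  have hQ' : (1 : ℝ) ≤ (Q : ℝ) := by exact_mod_cast hQ
  have hM' : (M : ℝ) ≤ (Q : ℝ) := by exact_mod_cast hM
  have hn := nK_eq Q M hQ
  have hb : (0 : ℝ) < ((2 * Q).choose M : ℝ) := by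
    exact_mod_cast Nat.choose_pos (by omega)
  have h1 : (0 : ℝ) < 2 * (Q : ℝ) - 1 := by linarith
  have h2 : (0 : ℝ) < 2 * (Q : ℝ) - (M : ℝ) := by linarith
  rcases Nat.eq_zero_or_pos M with h0 | h0
  · subst h0
    simp [dM]
  · have hM0 : (0 : ℝ) < (M : ℝ) := by exact_mod_cast h0
    have hnK : nK Q M = ((2 * Q).choose M : ℝ) * ((M : ℝ) * (2 * (Q : ℝ) - (M : ℝ)))
        / (2 * (Q : ℝ) - 1) := eq_div_of_mul_eq h1.ne' hn
    unfold dM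
    rw [hnK]
    field_simp

/-- auxiliary: the telescoping term -/
noncomputable def tM (Q M : ℕ) : ℝ :=
  ((M : ℝ) + 1) * (Q.choose M : ℝ) / (((Q : ℝ) + 1) * ((2 * Q).choose M : ℝ))

theorem tM_sub (Q M : ℕ) (hQ : 1 ≤ Q) (hM : M ≤ Q) :
    (M : ℝ) * (Q.choose M : ℝ) / ((2 * (Q : ℝ) - (M : ℝ)) * ((2 * Q).choose M : ℝ))
      = tM Q M - tM Q (M + 1) := by
  have hQ' : (1 : ℝ) ≤ (Q : ℝ) := by exact_mod_cast hQ
  have hM' : (M : ℝ) ≤ (Q : ℝ) := by exact_mod_cast hM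
  have hM0 : (0 : ℝ) ≤ (M : ℝ) := Nat.cast_nonneg M
  have hb : (0 : ℝ) < ((2 * Q).choose M : ℝ) := by
    exact_mod_cast Nat.choose_pos (by omega)
  have h2 : (0 : ℝ) < 2 * (Q : ℝ) - (M : ℝ) := by linarith
  have h3 : (0 : ℝ) < (M : ℝ) + 1 := by linarith
  have h4 : (0 : ℝ) < (Q : ℝ) + 1 := by linarith
  have ha' : (Q.choose (M + 1) : ℝ) = (Q.choose M : ℝ) * ((Q : ℝ) - (M : ℝ)) / ((M : ℝ) + 1) := by
    rw [eq_div_iff h3.ne']
    have := Nat.choose_succ_right_eq Q M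
    have h := congrArg (fun n : ℕ => (n : ℝ)) this
    simp only [Nat.cast_mul, Nat.cast_add, Nat.cast_one, Nat.cast_sub hM] at h
    exact h
  have hb' : ((2 * Q).choose (M + 1) : ℝ)
      = ((2 * Q).choose M : ℝ) * (2 * (Q : ℝ) - (M : ℝ)) / ((M : ℝ) + 1) := by
    rw [eq_div_iff h3.ne']
    have := Nat.choose_succ_right_eq (2 * Q) M
    have h := congrArg (fun n : ℕ => (n : ℝ)) this
    have hle : M ≤ 2 * Q := by omega
    simp only [Nat.cast_mul, Nat.cast_add, Nat.cast_one, Nat.cast_sub hle, Nat.cast_ofNat] at h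
    exact h
  unfold tM
  rw [ha', hb']
  push_cast
  generalize (Q.choose M : ℝ) = a
  generalize ((2 * Q).choose M : ℝ) = b at hb ⊢
  field_simp
  ring

theorem sum_dM_aux (Q : ℕ) (hQ : 1 ≤ Q) (m : ℕ) (hm : m ≤ Q + 1) :
    ∑ M ∈ range m, dM Q M = (2 * (Q : ℝ) - 1) * (tM Q 0 - tM Q m) := by
  induction m with
  | zero => simp
  | succ n ih =>
    rw [Finset.sum_range_succ, ih (by omega), dM_closed Q n hQ (by omega),
      tM_sub Q n hQ (by omega)]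
    ring

/-- Plan: by `nK_eq`, for `1 ≤ M ≤ Q`: `dM Q M = (2Q-1) * M * C(Q,M) / ((2Q-M) * C(2Q,M))`, and
`dM Q 0 = 0`.  Telescoping: with `T M = (M+1) * C(Q,M) / ((Q+1) * C(2Q,M))` one has
`M * C(Q,M) / ((2Q-M) * C(2Q,M)) = T M - T (M+1)` for `M ≤ Q`
(use `C(Q,M+1) (M+1) = C(Q,M) (Q-M)` and `C(2Q,M+1) (M+1) = C(2Q,M) (2Q-M)`,
`Nat.choose_succ_right_eq`), `T 0 = 1/(Q+1)`, `T (Q+1) = 0`.  Prove
`∑ M ∈ range m, dM Q M = (2Q-1) * (T 0 - T m)` for `m ≤ Q+1` by induction on `m`. -/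
theorem sum_dM (Q : ℕ) (hQ : 1 ≤ Q) :
    ∑ M ∈ range (Q + 1), dM Q M = (2 * (Q : ℝ) - 1) / ((Q : ℝ) + 1) := by
  rw [sum_dM_aux Q hQ (Q + 1) le_rfl]
  have h0 : tM Q 0 = 1 / ((Q : ℝ) + 1) := by
    simp [tM]
  have h1 : tM Q (Q + 1) = 0 := by
    simp [tM, Nat.choose_succ_self]
  rw [h0, h1]
  ring

end Vale.Agent.Lib.P359
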