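import Vale.Agent.Lib.P359.Trial

/-! # P359: a sharper bound: the trial vector does not occupy the orbital `z ^ 1` -/

namespace Vale.Agent.Lib.P359

open Finset

variable {N Q : ℕ}

/-- no monomial of the Laughlin polynomial has the exponents `0` and `2` -/
theorem lcoef_eq_zero_of_zero_two (N : ℕ) {i l : Fin N} (hil : i ≠ l) {y : Fin N → ℕ}
    (hl : y l = 0) (hi : y i = 2) : lcoef N y = 0 := by
  obtain ⟨R, hR⟩ := cube_dvd_laughlinPoly N (Ne.symm hil)
  have h1 : laughlinPoly N =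
      MvPolynomial.X l * ((MvPolynomial.X l ^ 2 - 3 * MvPolynomial.X l * MvPolynomial.X i +
        3 * MvPolynomial.X i ^ 2) * R) -
      MvPolynomial.X i * (MvPolynomial.X i * (MvPolynomial.X i * R)) := by
    rw [hR]
    ring
  unfold lcoef
  rw [h1, MvPolynomial.coeff_sub, MvPolynomial.coeff_X_mul', MvPolynomial.coeff_X_mul',
    MvPolynomial.coeff_X_mul', MvPolynomial.coeff_X_mul']
  have hl' : l ∉ (Finsupp.equivFunOnFinite.symm y).support := by
    simp [hl]
  have hi' : i ∉ (Finsupp.equivFunOnFinite.symm y - Finsupp.single i 1 -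
      Finsupp.single i 1).support := by
    simp [hi]
  rw [if_neg hl', if_neg hi']
  simp

/-- the trial vector does not occupy the orbital `z ^ 1` -/
theorem trial_eq_zero_of_one (N : ℕ) (x : Cfg N (3 * (N - 1))) (h : ∃ j, (x j : ℕ) = 1) :
    trial N x = 0 := by
  obtain ⟨j, hj⟩ := h
  unfold trial
  apply Finset.sum_eq_zero
  intro l _
  split_ifs with hl
  · have hjl : j ≠ l := by
      intro h
      rw [h] at hj
      omega
    apply lcoef_eq_zero_of_zero_two N hjl
    · simp [shiftCfg]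
    · simp [shiftCfg, hjl, hj]
  · rfl

theorem dM_one (Q : ℕ) (hQ : 1 ≤ Q) : dM Q 1 = 1 / 2 := by
  have h := nK_eq Q 1 hQ
  have hQ' : (1 : ℝ) ≤ (Q : ℝ) := by exact_mod_cast hQ
  have h2 : (2 * (Q : ℝ) - 1) ≠ 0 := by
    have : (0 : ℝ) < 2 * (Q : ℝ) - 1 := by linarith
    exact this.ne'
  have h3 : nK Q 1 = 2 * (Q : ℝ) := by
    apply mul_right_cancel₀ h2
    rw [h]
    simp
  unfold dM
  rw [h3]
  simp only [Nat.cast_one, one_pow, Nat.choose_one_right, one_mul]
  have : (Q : ℝ) ≠ 0 := by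
    have : (0 : ℝ) < (Q : ℝ) := by linarith
    exact this.ne'
  field_simp

theorem sum_dM_le_sharp (r : Cfg N Q) (hQ : 1 ≤ Q) (hr : Function.Injective r)
    (h1 : ∀ j, (r j : ℕ) ≠ 1) :
    ∑ i : Fin N, ∑ j : Fin N, (if i ≠ j ∧ (r i : ℕ) = 0 then dM Q (r j) else 0) ≤
      ∑ M ∈ range (Q + 1), dM Q M - dM Q 1 := by
  have hS : ∑ j : Fin N, dM Q (r j) ≤ ∑ M ∈ range (Q + 1), dM Q M - dM Q 1 := by
    have hmem : 1 ∈ range (Q + 1) := Finset.mem_range.2 (by omega)
    rw [← Finset.sum_erase_eq_sub hmem]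
    have hinj : Function.Injective (fun j : Fin N => ((r j : Fin (Q + 1)) : ℕ)) :=
      fun a b h => hr (Fin.ext h)
    rw [← Finset.sum_image (f := fun M => dM Q M)
      (g := fun j : Fin N => ((r j : Fin (Q + 1)) : ℕ)) (s := univ) (fun a _ b _ h => hinj h)]
    apply Finset.sum_le_sum_of_subset_of_nonneg
    · intro M hM
      obtain ⟨j, _, rfl⟩ := Finset.mem_image.1 hM
      exact Finset.mem_erase.2 ⟨h1 j, Finset.mem_range.2 (r j).2⟩
    · intro M _ _
      exact dM_nonneg Q M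
  have hS0 : 0 ≤ ∑ j : Fin N, dM Q (r j) := Finset.sum_nonneg fun j _ => dM_nonneg _ _
  calc ∑ i : Fin N, ∑ j : Fin N, (if i ≠ j ∧ (r i : ℕ) = 0 then dM Q (r j) else 0)
      ≤ ∑ i : Fin N, (if (r i : ℕ) = 0 then ∑ j : Fin N, dM Q (r j) else 0) := by
        apply Finset.sum_le_sum
        intro i _
        by_cases h : (r i : ℕ) = 0
        · rw [if_pos h]
          apply Finset.sum_le_sum
          intro j _
          split_ifs
          · exact le_rfl
          · exact dM_nonneg _ _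
        · simp [h]
    _ = ((univ.filter fun i : Fin N => (r i : ℕ) = 0).card : ℝ) * ∑ j : Fin N, dM Q (r j) := by
        rw [← Finset.sum_filter, Finset.sum_const, nsmul_eq_mul]
    _ ≤ 1 * ∑ j : Fin N, dM Q (r j) := by
        apply mul_le_mul_of_nonneg_right _ hS0
        have : (univ.filter fun i : Fin N => (r i : ℕ) = 0).card ≤ 1 := by
          rw [Finset.card_le_one]
          intro a ha b hb
          have ha' : (r a : ℕ) = 0 := (Finset.mem_filter.1 ha).2
          have hb' : (r b : ℕ) = 0 := (Finset.mem_filter.1 hb).2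
          exact hr (Fin.ext (by rw [ha', hb']))
        exact_mod_cast this
    _ ≤ ∑ M ∈ range (Q + 1), dM Q M - dM Q 1 := by
        rw [one_mul]
        exact hS

theorem energy_le_sharp (ψ : Vec N Q) (hQ : 1 ≤ Q) (hA : Antisymm ψ) (hB : Bdry ψ)
    (h1 : ∀ r : Cfg N Q, (∃ j, (r j : ℕ) = 1) → ψ r = 0) :
    (ip ψ (ham ψ)).re ≤ 2 * (∑ M ∈ range (Q + 1), dM Q M - dM Q 1) * (ip ψ ψ).re := by
  classical
  set D : ℝ := ∑ M ∈ range (Q + 1), dM Q M - dM Q 1 with hD
  set E : Fin N → Fin N → ℝ := fun i j =>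
    ∑ r : Cfg N Q, if (r i : ℕ) = 0 then 4 * wt r * dM Q (r j) * ‖ψ r‖ ^ 2 else 0 with hE
  have hip : ∀ i j : Fin N, i ≠ j → ip ψ (pairProj i j ψ) = ((E i j : ℝ) : ℂ) :=
    fun i j hij => ip_pairProj ψ hB hij
  have hsymm : ∀ i j : Fin N, i ≠ j → E i j = E j i := by
    intro i j hij
    have h1 := hip i j hij
    have h2 := hip j i hij.symm
    rw [pairProj_symm hij] at h2
    exact Complex.ofReal_injective (h1.symm.trans h2)
  set E' : Fin N → Fin N → ℝ := fun i j => if i ≠ j then E i j else 0 with hE'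
  have hsymm' : ∀ i j, E' i j = E' j i := by
    intro i j
    by_cases hij : i = j
    · subst hij
      rfl
    · have hji : j ≠ i := fun h => hij h.symm
      simp only [hE', ne_eq, hij, hji, not_false_eq_true, if_true]
      exact hsymm i j hij
  set S : ℝ := ∑ i : Fin N, ∑ j : Fin N, (if i < j then E' i j else 0) with hS
  have hham : ip ψ (ham ψ) = ((S : ℝ) : ℂ) := by
    rw [ip_ham, hS]
    push_cast
    refine Finset.sum_congr rfl fun i _ => Finset.sum_congr rfl fun j _ => ?_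
    by_cases hlt : i < j
    · have hne : i ≠ j := ne_of_lt hlt
      simp only [hlt, if_true, hE', ne_eq, hne, not_false_eq_true]
      exact hip i j hne
    · simp only [hlt, if_false, Complex.ofReal_zero]
  have h2S : 2 * S = ∑ r : Cfg N Q, 4 * wt r * ‖ψ r‖ ^ 2 *
      ∑ i : Fin N, ∑ j : Fin N, (if i ≠ j ∧ (r i : ℕ) = 0 then dM Q (r j) else 0) := by
    rw [hS, sum_lt_eq_half E' hsymm']
    have e1 : ∀ i j : Fin N, (if i ≠ j then E' i j else 0) =
        ∑ r : Cfg N Q, 4 * wt r * ‖ψ r‖ ^ 2 *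
          (if i ≠ j ∧ (r i : ℕ) = 0 then dM Q (r j) else 0) := by
      intro i j
      by_cases hij : i = j
      · simp [hij]
      · simp only [hE', hE, ne_eq, hij, not_false_eq_true, if_true, true_and]
        refine Finset.sum_congr rfl fun r _ => ?_
        by_cases hr : (r i : ℕ) = 0
        · simp only [hr, if_true]
          ring
        · simp only [hr, if_false, mul_zero]
    simp only [e1]
    have e2 : ∀ i : Fin N, ∑ j : Fin N, ∑ r : Cfg N Q, 4 * wt r * ‖ψ r‖ ^ 2 *
          (if i ≠ j ∧ (r i : ℕ) = 0 then dM Q (r j) else 0) =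
        ∑ r : Cfg N Q, ∑ j : Fin N, 4 * wt r * ‖ψ r‖ ^ 2 *
          (if i ≠ j ∧ (r i : ℕ) = 0 then dM Q (r j) else 0) := fun i => Finset.sum_comm
    simp only [e2]
    rw [Finset.sum_comm]
    refine Finset.sum_congr rfl fun r _ => ?_
    rw [Finset.mul_sum]
    refine Finset.sum_congr rfl fun i _ => ?_
    rw [Finset.mul_sum]
  have hself : (ip ψ ψ).re = ∑ x : Cfg N Q, wt x * ‖ψ x‖ ^ 2 := by
    rw [ip_self, Complex.ofReal_re]
  have hbound : 2 * S ≤ ∑ r : Cfg N Q, 4 * wt r * ‖ψ r‖ ^ 2 * D := by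
    rw [h2S]
    refine Finset.sum_le_sum fun r _ => ?_
    by_cases hr : Function.Injective r
    · by_cases hone : ∃ j, (r j : ℕ) = 1
      · simp [h1 r hone]
      · have h1 := sum_dM_le_sharp r hQ hr (fun j hj => hone ⟨j, hj⟩)
        have h2 : 0 ≤ 4 * wt r * ‖ψ r‖ ^ 2 := by
          have := (wt_pos r).le
          positivity
        exact mul_le_mul_of_nonneg_left h1 h2
    · have hz : ψ r = 0 := by
        unfold Function.Injective at hr
        simp only [not_forall] at hr
        obtain ⟨i, j, hx, hij⟩ := hr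
        exact hA.eq_zero hij hx
      simp [hz]
  rw [hham, Complex.ofReal_re, hself]
  have e3 : ∑ r : Cfg N Q, 4 * wt r * ‖ψ r‖ ^ 2 * D = 4 * D * ∑ x : Cfg N Q, wt x * ‖ψ x‖ ^ 2 := by
    rw [Finset.mul_sum]
    refine Finset.sum_congr rfl fun r _ => ?_
    ring
  rw [e3] at hbound
  linarith

end Vale.Agent.Lib.P359
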