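import Vale.Agent.Lib.P359.Laughlin
import Vale.Agent.Lib.P359.Form

/-! # P359: the trial vector -/

namespace Vale.Agent.Lib.P359

open Finset

/-- T0. a double sum over `Fin (Q+1)` with the constraint `c + d = K` is a sum over
`antidiagonal K`, if the summand vanishes outside the box -/
theorem sum_fin_fin_eq_antidiagonal (Q K : ℕ) (f : ℕ → ℕ → ℂ)
    (hf : ∀ c d, Q < c ∨ Q < d → f c d = 0) :
    ∑ c : Fin (Q + 1), ∑ d : Fin (Q + 1), (if (c : ℕ) + (d : ℕ) = K then f c d else 0) =
      ∑ p ∈ antidiagonal K, f p.1 p.2 := by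
  have h1 : ∀ c : ℕ, ∑ d : Fin (Q + 1), (if c + (d : ℕ) = K then f c d else 0)
      = ∑ d ∈ range (Q + 1), (if c + d = K then f c d else 0) := fun c =>
    Fin.sum_univ_eq_sum_range (fun d => if c + d = K then f c d else 0) (Q + 1)
  simp only [h1]
  rw [Fin.sum_univ_eq_sum_range
    (fun c => ∑ d ∈ range (Q + 1), (if c + d = K then f c d else 0)) (Q + 1),
    ← Finset.sum_product' (range (Q + 1)) (range (Q + 1))
      (fun c d => if c + d = K then f c d else 0), ← Finset.sum_filter]
  apply Finset.sum_subset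
  · intro p hp
    rw [Finset.mem_filter] at hp
    exact HasAntidiagonal.mem_antidiagonal.2 hp.2
  · intro p hp hnot
    rw [HasAntidiagonal.mem_antidiagonal] at hp
    apply hf
    by_contra hcon
    push Not at hcon
    apply hnot
    rw [Finset.mem_filter, Finset.mem_product, Finset.mem_range, Finset.mem_range]
    exact ⟨⟨by omega, by omega⟩, hp⟩

/-- T1. `shiftCfg l (x ∘ σ) = shiftCfg (σ l) x ∘ σ`, then `lcoef_perm` and `Equiv.sum_comp σ` -/
theorem trial_antisymm (N : ℕ) : Antisymm (trial N) := by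
  intro σ x
  unfold trial
  have h1 : ∀ l : Fin N, shiftCfg l (x ∘ σ) = shiftCfg (σ l) x ∘ σ := by
    intro l
    funext i
    simp only [shiftCfg, Function.comp_apply, EmbeddingLike.apply_eq_iff_eq]
  simp only [h1, lcoef_perm, Function.comp_apply]
  rw [Finset.mul_sum, ← Equiv.sum_comp σ
    (fun l => (((Equiv.Perm.sign σ : ℤˣ) : ℤ) : ℂ) *
      (if (x l : ℕ) = 0 then lcoef N (shiftCfg l x) else 0))]
  refine Finset.sum_congr rfl fun l _ => ?_
  split_ifs <;> simp

/-- T2. if `x i = 0` only the term `l = i` survives: for `l ≠ i` with `x l = 0` the exponent vector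
`shiftCfg l x` has the exponents `0` (at `l`) and `1` (at `i`): `lcoef_eq_zero_of_zero_one` -/
theorem trial_eq (N : ℕ) (x : Cfg N (3 * (N - 1))) (i : Fin N) (hi : (x i : ℕ) = 0) :
    trial N x = lcoef N (shiftCfg i x) := by
  unfold trial
  rw [Finset.sum_eq_single i]
  · rw [if_pos hi]
  · intro l _ hli
    split_ifs with hl
    · apply lcoef_eq_zero_of_zero_one N (i := i) (l := l) (Ne.symm hli)
      · simp [shiftCfg]
      · simp [shiftCfg, Ne.symm hli, hi]
    · rfl
  · intro h
    exact absurd (Finset.mem_univ i) h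

/-- T3. the terms `l ∉ {i, j}` do not contribute to `lam i j (trial N) x`.  Plan: if `x l ≠ 0` all
terms vanish.  Otherwise, with `y = shiftCfg l x`,
`shiftCfg l (upd2 x i j c d) = update (update y i (c+1)) j (d+1)`.
By `sum_fin_fin_eq_antidiagonal` (terms with `c > Q` or `d > Q` vanish by `lcoef_degree`) the sum is
`∑ p ∈ antidiagonal K, (p.1 - p.2) * lcoef N (update (update y i (p.1+1)) j (p.2+1))`, and by
`Finset.Nat.antidiagonal_succ_succ'` this is the sum of `lcoef_kernel` for `K + 2` without the two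
terms with an exponent `0` at `i` or at `j`, which vanish by `lcoef_eq_zero_of_eq` (`y l = 0`). -/
theorem lam_trial_other (N : ℕ) {i j l : Fin N} (hij : i ≠ j) (hli : l ≠ i) (hlj : l ≠ j)
    (x : Cfg N (3 * (N - 1))) :
    ∑ c : Fin (3 * (N - 1) + 1), ∑ d : Fin (3 * (N - 1) + 1),
      (if (c : ℕ) + (d : ℕ) = (x i : ℕ) + (x j : ℕ) then
        (((c : ℕ) : ℂ) - ((d : ℕ) : ℂ)) *
          (if ((upd2 x i j c d) l : ℕ) = 0 then lcoef N (shiftCfg l (upd2 x i j c d)) else 0)
        else 0) = 0 := by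
  by_cases hxl : (x l : ℕ) = 0
  · obtain ⟨y, hy⟩ : ∃ y : Fin N → ℕ, y = shiftCfg l x := ⟨_, rfl⟩
    have hyl : y l = 0 := by rw [hy]; simp [shiftCfg]
    have hshift : ∀ c d : Fin (3 * (N - 1) + 1), shiftCfg l (upd2 x i j c d)
        = Function.update (Function.update y i ((c : ℕ) + 1)) j ((d : ℕ) + 1) := by
      intro c d
      funext a
      by_cases haj : a = j
      · subst haj
        simp [shiftCfg, upd2_apply_j, Ne.symm hlj]
      · by_cases hai : a = i
        · subst hai
          rw [Function.update_of_ne haj, Function.update_self]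
          simp [shiftCfg, upd2_apply_i x hij, Ne.symm hli]
        · rw [Function.update_of_ne haj, Function.update_of_ne hai, hy]
          simp only [shiftCfg, upd2_apply_ne x hai haj]
    obtain ⟨f, hf⟩ : ∃ f : ℕ → ℕ → ℂ, f = fun (c d : ℕ) => ((c : ℂ) - (d : ℂ)) *
        lcoef N (Function.update (Function.update y i (c + 1)) j (d + 1)) := ⟨_, rfl⟩
    have hf0 : ∀ c d, 3 * (N - 1) < c ∨ 3 * (N - 1) < d → f c d = 0 := by
      intro c d hcd
      rw [hf]
      have : lcoef N (Function.update (Function.update y i (c + 1)) j (d + 1)) = 0 := by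
        by_contra hne
        have h1 := lcoef_degree N hne i
        have h2 := lcoef_degree N hne j
        rw [Function.update_of_ne hij, Function.update_self] at h1
        rw [Function.update_self] at h2
        omega
      simp only [this, mul_zero]
    have hsum := sum_fin_fin_eq_antidiagonal (3 * (N - 1)) ((x i : ℕ) + (x j : ℕ)) f hf0
    have hrew : ∀ c d : Fin (3 * (N - 1) + 1),
        (if (c : ℕ) + (d : ℕ) = (x i : ℕ) + (x j : ℕ) then
        (((c : ℕ) : ℂ) - ((d : ℕ) : ℂ)) *
          (if ((upd2 x i j c d) l : ℕ) = 0 then lcoef N (shiftCfg l (upd2 x i j c d)) else 0)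
        else 0) = (if (c : ℕ) + (d : ℕ) = (x i : ℕ) + (x j : ℕ) then f c d else 0) := by
      intro c d
      rw [upd2_apply_ne x hli hlj, if_pos hxl, hshift, hf]
    simp only [hrew]
    rw [hsum]
    have hker := lcoef_kernel N hij y ((x i : ℕ) + (x j : ℕ) + 2)
    rw [Finset.Nat.sum_antidiagonal_succ, Finset.Nat.sum_antidiagonal_succ'] at hker
    have z1 : lcoef N (Function.update (Function.update y i 0) j ((x i : ℕ) + (x j : ℕ) + 1 + 1))
        = 0 := by
      apply lcoef_eq_zero_of_eq N hli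
      rw [Function.update_of_ne hlj, Function.update_of_ne hli, hyl,
        Function.update_of_ne hij, Function.update_self]
    have z2 : lcoef N (Function.update (Function.update y i ((x i : ℕ) + (x j : ℕ) + 1 + 1)) j 0)
        = 0 := by
      apply lcoef_eq_zero_of_eq N hlj
      rw [Function.update_of_ne hlj, Function.update_of_ne hli, hyl, Function.update_self]
    simp only [z1, z2, mul_zero, zero_add] at hker
    rw [← hker, hf]
    refine Finset.sum_congr rfl (fun p _ => ?_)
    push_cast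
    ring
  · apply Finset.sum_eq_zero
    intro c _
    apply Finset.sum_eq_zero
    intro d _
    rw [upd2_apply_ne x hli hlj, if_neg hxl, mul_zero]
    simp

/-- auxiliary for T4, T5: only `c = 0`, `d = K` contributes -/
theorem sum_single_aux (Q K : ℕ) (G : Fin (Q + 1) → Fin (Q + 1) → ℂ) :
    ∑ c : Fin (Q + 1), ∑ d : Fin (Q + 1),
      (if (c : ℕ) + (d : ℕ) = K then
        (((c : ℕ) : ℂ) - ((d : ℕ) : ℂ)) * (if (c : ℕ) = 0 then G c d else 0) else 0) =
      if K ≤ Q then - (K : ℂ) * G 0 (Fin.ofNat (Q + 1) K) else 0 := by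
  rw [Finset.sum_eq_single (0 : Fin (Q + 1))]
  · simp only [Fin.val_zero, if_true, Nat.zero_add, Nat.cast_zero, zero_sub]
    by_cases hK : K ≤ Q
    · have hval : ((Fin.ofNat (Q + 1) K : Fin (Q + 1)) : ℕ) = K := by
        simp [Fin.ofNat, Nat.mod_eq_of_lt (Nat.lt_succ_of_le hK)]
      rw [if_pos hK, Finset.sum_eq_single (Fin.ofNat (Q + 1) K)]
      · rw [if_pos hval, hval]
      · intro d _ hd
        rw [if_neg]
        intro h
        apply hd
        apply Fin.ext
        rw [hval]
        exact h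
      · simp
    · rw [if_neg hK]
      apply Finset.sum_eq_zero
      intro d _
      rw [if_neg]
      have := d.2
      omega
  · intro c _ hc
    apply Finset.sum_eq_zero
    intro d _
    have : (c : ℕ) ≠ 0 := fun h => hc (Fin.ext h)
    simp [this]
  · simp

/-- T4. the term `l = i`: only `c = 0`, `d = K` contributes -/
theorem lam_trial_i (N : ℕ) {i j : Fin N} (hij : i ≠ j) (x : Cfg N (3 * (N - 1))) :
    ∑ c : Fin (3 * (N - 1) + 1), ∑ d : Fin (3 * (N - 1) + 1),
      (if (c : ℕ) + (d : ℕ) = (x i : ℕ) + (x j : ℕ) then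
        (((c : ℕ) : ℂ) - ((d : ℕ) : ℂ)) *
          (if ((upd2 x i j c d) i : ℕ) = 0 then lcoef N (shiftCfg i (upd2 x i j c d)) else 0)
        else 0) =
      if (x i : ℕ) + (x j : ℕ) ≤ 3 * (N - 1) then
        - (((x i : ℕ) : ℂ) + ((x j : ℕ) : ℂ)) *
          lcoef N (shiftCfg i (upd2 x i j 0 (Fin.ofNat (3 * (N - 1) + 1) ((x i : ℕ) + (x j : ℕ)))))
      else 0 := by
  have h := sum_single_aux (3 * (N - 1)) ((x i : ℕ) + (x j : ℕ))
    (fun c d => lcoef N (shiftCfg i (upd2 x i j c d)))
  simp only [upd2_apply_i x hij]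
  rw [h]
  push_cast
  rfl

/-- T5. the term `l = j`: only `d = 0`, `c = K` contributes, and
`shiftCfg j (upd2 x i j K 0) = shiftCfg i (upd2 x i j 0 K) ∘ Equiv.swap i j`, so `lcoef_perm` gives
the same value as in `lam_trial_i`. -/
theorem lam_trial_j (N : ℕ) {i j : Fin N} (hij : i ≠ j) (x : Cfg N (3 * (N - 1))) :
    ∑ c : Fin (3 * (N - 1) + 1), ∑ d : Fin (3 * (N - 1) + 1),
      (if (c : ℕ) + (d : ℕ) = (x i : ℕ) + (x j : ℕ) then
        (((c : ℕ) : ℂ) - ((d : ℕ) : ℂ)) *
          (if ((upd2 x i j c d) j : ℕ) = 0 then lcoef N (shiftCfg j (upd2 x i j c d)) else 0)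
        else 0) =
      if (x i : ℕ) + (x j : ℕ) ≤ 3 * (N - 1) then
        - (((x i : ℕ) : ℂ) + ((x j : ℕ) : ℂ)) *
          lcoef N (shiftCfg i (upd2 x i j 0 (Fin.ofNat (3 * (N - 1) + 1) ((x i : ℕ) + (x j : ℕ)))))
      else 0 := by
  have h := sum_single_aux (3 * (N - 1)) ((x i : ℕ) + (x j : ℕ))
    (fun d c => lcoef N (shiftCfg j (upd2 x i j c d)))
  simp only [upd2_apply_j x i j]
  rw [Finset.sum_comm]
  have h2 : ∑ d : Fin (3 * (N - 1) + 1), ∑ c : Fin (3 * (N - 1) + 1),
      (if (c : ℕ) + (d : ℕ) = (x i : ℕ) + (x j : ℕ) then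
        (((c : ℕ) : ℂ) - ((d : ℕ) : ℂ)) *
          (if (d : ℕ) = 0 then lcoef N (shiftCfg j (upd2 x i j c d)) else 0)
        else 0) =
      - ∑ d : Fin (3 * (N - 1) + 1), ∑ c : Fin (3 * (N - 1) + 1),
      (if (d : ℕ) + (c : ℕ) = (x i : ℕ) + (x j : ℕ) then
        (((d : ℕ) : ℂ) - ((c : ℕ) : ℂ)) *
          (if (d : ℕ) = 0 then lcoef N (shiftCfg j (upd2 x i j c d)) else 0)
        else 0) := by
    rw [← Finset.sum_neg_distrib]
    apply Finset.sum_congr rfl
    intro d _
    rw [← Finset.sum_neg_distrib]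
    apply Finset.sum_congr rfl
    intro c _
    rw [Nat.add_comm (c : ℕ) (d : ℕ)]
    split_ifs <;> ring
  rw [h2, h]
  split_ifs with hK
  · set Kf : Fin (3 * (N - 1) + 1) := Fin.ofNat (3 * (N - 1) + 1) ((x i : ℕ) + (x j : ℕ)) with hKf
    have hsw : shiftCfg j (upd2 x i j Kf 0) = shiftCfg i (upd2 x i j 0 Kf) ∘ Equiv.swap i j := by
      funext l
      by_cases hli : l = i
      · subst hli
        simp [shiftCfg, hij, hij.symm, upd2_apply_i x hij, upd2_apply_j]
      · by_cases hlj : l = j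
        · subst hlj
          simp [shiftCfg]
        · simp [shiftCfg, hli, hlj, Equiv.swap_apply_of_ne_of_ne hli hlj,
            upd2_apply_ne x hli hlj]
    rw [hsw, lcoef_perm, Equiv.Perm.sign_swap hij]
    push_cast
    ring
  · simp
/-- T6 (assembly).  Unfold `lam`, `trial`; pull the sum over `l` out (`Finset.mul_sum`,
`Finset.sum_comm`); split it into `l = i`, `l = j` and the rest (`lam_trial_i`, `lam_trial_j`,
`lam_trial_other`); finally `trial_eq` at `upd2 x i j 0 K` (whose exponent at `i` is `0`). -/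
theorem trial_bdry (N : ℕ) : Bdry (trial N) := by
  intro i j hij x
  have h1 : lam i j (trial N) x = ∑ l : Fin N,
      ∑ c : Fin (3 * (N - 1) + 1), ∑ d : Fin (3 * (N - 1) + 1),
      (if (c : ℕ) + (d : ℕ) = (x i : ℕ) + (x j : ℕ) then
        (((c : ℕ) : ℂ) - ((d : ℕ) : ℂ)) *
          (if ((upd2 x i j c d) l : ℕ) = 0 then lcoef N (shiftCfg l (upd2 x i j c d)) else 0)
        else 0) := by
    unfold lam trial
    symm
    rw [Finset.sum_comm]
    apply Finset.sum_congr rfl
    intro c _
    rw [Finset.sum_comm]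
    apply Finset.sum_congr rfl
    intro d _
    split_ifs with h
    · rw [Finset.mul_sum]
    · simp
  rw [h1, Fintype.sum_eq_add i j hij, lam_trial_i N hij x, lam_trial_j N hij x]
  · split_ifs with h
    · rw [trial_eq N _ i (by rw [upd2_apply_i x hij]; rfl)]
      ring
    · simp
  · intro l hl
    exact lam_trial_other N hij hl.1 hl.2 x

/-- T7. take `y` from `exists_lcoef_ne_zero N l`; for `i ≠ l`: `y i ≠ 0` (`lcoef_eq_zero_of_eq`),
`y i ≠ 1` (`lcoef_eq_zero_of_zero_one`), `y i ≤ 3 (N-1)` (`lcoef_degree`).  Put `x l = 0`,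
`x i = y i - 1`; then `shiftCfg l x = y` and `trial_eq` applies. -/
theorem trial_ne_zero (N : ℕ) (hN : 2 ≤ N) : ∃ x, trial N x ≠ 0 := by
  have hpos : 0 < N := by omega
  obtain ⟨y, hyl, hy⟩ := exists_lcoef_ne_zero N (⟨0, hpos⟩ : Fin N)
  have h0 : ∀ i : Fin N, i ≠ ⟨0, hpos⟩ → y i ≠ 0 := by
    intro i hi h
    exact hy (lcoef_eq_zero_of_eq N hi (by rw [h, hyl]))
  have hdeg : ∀ i, y i ≤ 3 * (N - 1) := fun i => lcoef_degree N hy i
  have hx : shiftCfg (⟨0, hpos⟩ : Fin N)
      (fun i => (⟨y i - 1, by have := hdeg i; omega⟩ : Fin (3 * (N - 1) + 1))) = y := by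
    funext i
    unfold shiftCfg
    by_cases h : i = ⟨0, hpos⟩
    · rw [if_pos h, h, hyl]
    · have := h0 i h
      rw [if_neg h]
      change y i - 1 + 1 = y i
      omega
  refine ⟨fun i => (⟨y i - 1, by have := hdeg i; omega⟩ : Fin (3 * (N - 1) + 1)), ?_⟩
  rw [trial_eq N _ (⟨0, hpos⟩ : Fin N) (by change y _ - 1 = 0; rw [hyl]), hx]
  exact hy

/-- T8. the two vectors are homogeneous of different degrees (`lcoef_homogeneous`): if
`laughlin N x ≠ 0` then `∑ x i = D`; if `trial N x ≠ 0` then for some `l` with `x l = 0`: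
`∑ i, shiftCfg l x i = D`, i.e. `∑ x i + (N - 1) = D`.  So every term of `ip` vanishes. -/
theorem ip_laughlin_trial (N : ℕ) (hN : 2 ≤ N) : ip (laughlin N) (trial N) = 0 := by
  obtain ⟨D, hD⟩ := lcoef_homogeneous N
  unfold ip
  apply Finset.sum_eq_zero
  intro x _
  by_cases h1 : laughlin N x = 0
  · simp [h1]
  by_cases h2 : trial N x = 0
  · simp [h2]
  exfalso
  have e1 : ∑ i, (x i : ℕ) = D := hD _ h1
  have hex : ∃ l : Fin N, (x l : ℕ) = 0 ∧ lcoef N (shiftCfg l x) ≠ 0 := by
    by_contra hcon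
    push Not at hcon
    apply h2
    unfold trial
    apply Finset.sum_eq_zero
    intro l _
    split_ifs with h
    · exact hcon l h
    · rfl
  obtain ⟨l, hl, hl2⟩ := hex
  have e2 : ∑ i, shiftCfg l x i = D := hD _ hl2
  have e3 : ∑ i, shiftCfg l x i + 1 = ∑ i, (x i : ℕ) + N := by
    have key : ∀ i, shiftCfg l x i + (if i = l then 1 else 0) = (x i : ℕ) + 1 := by
      intro i
      unfold shiftCfg
      by_cases h : i = l
      · subst h
        simp [hl]
      · simp [h]
    have s := Finset.sum_congr rfl (fun i (_ : i ∈ (Finset.univ : Finset (Fin N))) => key i)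
    rw [Finset.sum_add_distrib, Finset.sum_add_distrib] at s
    simpa using s
  omega

end Vale.Agent.Lib.P359
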